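import Mathlib

set_option linter.all false

/-!
P333, ratio 2: the selection procedure, abstract version (note 8155, sections 2 and 4).

`E` is the space of the fractional solutions, `L` the set of the labels of the circles, `big` the
set of the big circles, `X F` the feasible set when the circles of `F` are contracted,
`f D x` the flow of `x` leaving the circle `D`.
-/

namespace Vale.Agent.P333.H359

/-- The facts about flows which are used. -/
structure Sys (E L : Type*) [AddCommGroup E] [Module ℝ E] [DecidableEq L] where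
  /-- the big circles -/
  big : Finset L
  /-- feasible fractional solutions -/
  X : Finset L → Set E
  /-- the cost -/
  cost : Finset L → E → ℝ
  /-- the flow leaving a circle -/
  f : L → E → ℝ
  /-- bound for the cost of the contraction -/
  M : ℝ
  M_nonneg : 0 ≤ M
  mem : ∀ F x y (θ : ℝ), 0 ≤ θ → θ ≤ 1 → x ∈ X F → y ∈ X F → (1 - θ) • x + θ • y ∈ X F
  cost_mix : ∀ F x y (θ : ℝ), 0 ≤ θ → θ ≤ 1 → x ∈ X F → y ∈ X F →
    cost F ((1 - θ) • x + θ • y) = (1 - θ) * cost F x + θ * cost F y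
  f_mix : ∀ D x y (θ : ℝ), f D ((1 - θ) • x + θ • y) = (1 - θ) * f D x + θ * f D y
  contract : ∀ F D x, D ∈ big → D ∉ F → x ∈ X F → f D x ≤ 1 →
    ∃ x' ∈ X (insert D F), cost (insert D F) x' ≤ cost F x + M * (1 - f D x) ∧
      ∀ D' ∈ big, D' ∉ insert D F → f D' x' = f D' x

variable {E L : Type*} [AddCommGroup E] [Module ℝ E] [DecidableEq L] (S : Sys E L)

namespace Sys

/-- `y` is an optimal integral solution of the problem of `F`; `a D` is the number of arcs leaving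
`D`, `c` is twice the cost. -/
structure Opt (F : Finset L) (y : E) (a : L → ℕ) (c : ℤ) : Prop where
  mem : y ∈ S.X F
  flow : ∀ D ∈ S.big, D ∉ F → S.f D y = a D
  cost : 2 * S.cost F y = c
  opt : ∀ x ∈ S.X F, S.cost F y ≤ S.cost F x

/-- Reachable states of the procedure. -/
inductive Reach (T : ℕ) (Φ0 : L → ℕ) : Finset L → (L → ℕ) → ℕ → Prop
  | init : Reach T Φ0 ∅ Φ0 T
  | step (F : Finset L) (Φ : L → ℕ) (q : ℕ) (y : E) (a : L → ℕ) (c : ℤ) (D : L) :
      Reach T Φ0 F Φ q → S.Opt F y a c → D ∈ S.big → D ∉ F → a D = 0 →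
      (∀ D' ∈ S.big, D' ∉ F → a D' = 0 → Φ D ≤ Φ D') →
      Reach T Φ0 (insert D F) (fun D' => Φ D' + (Φ D - q) * a D') (max q (Φ D))

/-- The invariant: there is a fractional solution with the flows `Φ / q`. -/
structure Good (κ δ : ℝ) (F : Finset L) (Φ : L → ℕ) (q : ℕ) (x : E) : Prop where
  sub : F ⊆ S.big
  pos : 0 < q
  mem : x ∈ S.X F
  flow : ∀ D ∈ S.big, D ∉ F → S.f D x * q = Φ D
  low : ∀ D ∈ S.big, D ∉ F → 1 - δ ≤ S.f D x
  cost : S.cost F x ≤ κ + F.card * (S.M * δ)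

variable {S}

theorem Good.cost_le {κ δ : ℝ} {N : ℤ} {F : Finset L} {Φ : L → ℕ} {q : ℕ} {x : E}
    (h : S.Good κ δ F Φ q x) (hδ : 0 ≤ δ)
    (hs : κ + S.big.card * (S.M * δ) < (N + 1) / 2)
    {y : E} {a : L → ℕ} {c : ℤ} (hy : S.Opt F y a c) : c ≤ N := by
  have h1 := hy.opt x h.mem
  have h2 := h.cost
  have h3 : (F.card : ℝ) ≤ S.big.card := by exact_mod_cast Finset.card_le_card h.sub
  have h4 : (F.card : ℝ) * (S.M * δ) ≤ S.big.card * (S.M * δ) :=
    mul_le_mul_of_nonneg_right h3 (mul_nonneg S.M_nonneg hδ)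
  have h5 : (c : ℝ) < N + 1 := by
    rw [← hy.cost]
    linarith
  have h6 : c < N + 1 := by exact_mod_cast h5
  omega

theorem Good.step {κ δ : ℝ} {N : ℤ} {F : Finset L} {Φ : L → ℕ} {q : ℕ} {x : E}
    (h : S.Good κ δ F Φ q x) (hδ : 0 ≤ δ) (hκ : (N : ℝ) / 2 ≤ κ)
    (hs : κ + S.big.card * (S.M * δ) < (N + 1) / 2)
    {y : E} {a : L → ℕ} {c : ℤ} (hy : S.Opt F y a c) {D : L} (hD : D ∈ S.big) (hDF : D ∉ F)
    (ha : a D = 0) (hmin : ∀ D' ∈ S.big, D' ∉ F → a D' = 0 → Φ D ≤ Φ D') :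
    ∃ x', S.Good κ δ (insert D F) (fun D' => Φ D' + (Φ D - q) * a D') (max q (Φ D)) x' := by
  have hq : (0 : ℝ) < q := by exact_mod_cast h.pos
  have hc : c ≤ N := h.cost_le hδ hs hy
  have hcy : S.cost F y ≤ κ := by
    have h1 : (c : ℝ) ≤ N := by exact_mod_cast hc
    have h2 := hy.cost
    linarith
  have hMδ : 0 ≤ S.M * δ := mul_nonneg S.M_nonneg hδ
  have hsub : insert D F ⊆ S.big := Finset.insert_subset hD h.sub
  have hcard : ((insert D F).card : ℝ) = F.card + 1 := by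
    rw [Finset.card_insert_of_notMem hDF]
    push_cast
    ring
  rcases le_or_gt (Φ D) q with hle | hlt
  · -- no mixing
    have hf : S.f D x ≤ 1 := by
      have h1 := h.flow D hD hDF
      have h2 : (Φ D : ℝ) ≤ q := by exact_mod_cast hle
      rw [← h1] at h2
      by_contra h3
      push Not at h3
      nlinarith
    obtain ⟨x', hx', hcost, hflow⟩ := S.contract F D x hD hDF h.mem hf
    refine ⟨x', hsub, lt_of_lt_of_le h.pos (le_max_left _ _), hx', ?_, ?_, ?_⟩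
    · intro D' hD' hD'F
      rw [hflow D' hD' hD'F, max_eq_left hle, Nat.sub_eq_zero_of_le hle]
      simpa using h.flow D' hD' (fun h' => hD'F (Finset.mem_insert_of_mem h'))
    · intro D' hD' hD'F
      rw [hflow D' hD' hD'F]
      exact h.low D' hD' (fun h' => hD'F (Finset.mem_insert_of_mem h'))
    · have h1 := h.low D hD hDF
      have h2 : S.M * (1 - S.f D x) ≤ S.M * δ :=
        mul_le_mul_of_nonneg_left (by linarith) S.M_nonneg
      rw [hcard]
      have h3 := h.cost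
      linarith
  · -- mixing
    have hΦ : (0 : ℝ) < Φ D := by exact_mod_cast lt_trans h.pos hlt
    have hqΦ : (q : ℝ) < Φ D := by exact_mod_cast hlt
    obtain ⟨θ, hθ⟩ : ∃ θ : ℝ, θ = q / Φ D := ⟨_, rfl⟩
    have hθΦ : θ * Φ D = q := by rw [hθ]; field_simp
    have hθ0 : 0 ≤ θ := by rw [hθ]; positivity
    have hθ1 : θ ≤ 1 := by rw [hθ, div_le_one hΦ]; exact hqΦ.le
    have hmem : (1 - θ) • y + θ • x ∈ S.X F := S.mem F y x θ hθ0 hθ1 hy.mem h.mem
    have hfz : ∀ D' ∈ S.big, D' ∉ F →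
        S.f D' ((1 - θ) • y + θ • x) * Φ D = (Φ D - q) * a D' + Φ D' := by
      intro D' hD' hD'F
      rw [S.f_mix, hy.flow D' hD' hD'F, ← h.flow D' hD' hD'F]
      linear_combination (-(a D' : ℝ) + S.f D' x) * hθΦ
    have hf1 : S.f D ((1 - θ) • y + θ • x) = 1 := by
      have h1 := hfz D hD hDF
      rw [ha] at h1
      have h2 : S.f D ((1 - θ) • y + θ • x) * Φ D = 1 * Φ D := by
        rw [h1]; push_cast; ring
      exact mul_right_cancel₀ hΦ.ne' h2
    obtain ⟨x', hx', hcost, hflow⟩ := S.contract F D _ hD hDF hmem hf1.le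
    refine ⟨x', hsub, lt_of_lt_of_le h.pos (le_max_left _ _), hx', ?_, ?_, ?_⟩
    · intro D' hD' hD'F
      have hD'F' : D' ∉ F := fun h' => hD'F (Finset.mem_insert_of_mem h')
      rw [hflow D' hD' hD'F, max_eq_right hlt.le, hfz D' hD' hD'F']
      push_cast [Nat.cast_sub hlt.le]
      ring
    · intro D' hD' hD'F
      have hD'F' : D' ∉ F := fun h' => hD'F (Finset.mem_insert_of_mem h')
      rw [hflow D' hD' hD'F]
      rcases Nat.eq_zero_or_pos (a D') with h0 | h0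
      · have h1 := hfz D' hD' hD'F'
        have h2 : (Φ D : ℝ) ≤ Φ D' := by exact_mod_cast hmin D' hD' hD'F' h0
        rw [h0] at h1
        have h3 : 1 * (Φ D : ℝ) ≤ S.f D' ((1 - θ) • y + θ • x) * Φ D := by
          rw [h1]; push_cast; linarith
        have h4 := le_of_mul_le_mul_right h3 hΦ
        linarith
      · rw [S.f_mix, hy.flow D' hD' hD'F']
        have h1 : (1 : ℝ) ≤ a D' := by exact_mod_cast h0
        have h2 := h.low D' hD' hD'F'
        nlinarith [mul_nonneg (sub_nonneg.2 hθ1) (sub_nonneg.2 h1),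
          mul_nonneg hθ0 (sub_nonneg.2 h2), mul_nonneg (sub_nonneg.2 hθ1) hδ]
    · rw [hf1] at hcost
      rw [S.cost_mix F y x θ hθ0 hθ1 hy.mem h.mem] at hcost
      rw [hcard]
      have h3 := h.cost
      have h4 : (0 : ℝ) ≤ F.card * (S.M * δ) := mul_nonneg (Nat.cast_nonneg _) hMδ
      nlinarith [mul_le_mul_of_nonneg_left hcy (sub_nonneg.2 hθ1),
        mul_le_mul_of_nonneg_left h3 hθ0, mul_nonneg (sub_nonneg.2 hθ1) h4]

/-- THE SELECTION PROCEDURE: twice the cost of every optimal solution which occurs is `≤ N`. -/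
theorem Reach.good {κ δ : ℝ} {N : ℤ} {T : ℕ} {Φ0 : L → ℕ} {x0 : E} (hT : 0 < T) (hδ : 0 ≤ δ)
    (hκ : (N : ℝ) / 2 ≤ κ) (hs : κ + S.big.card * (S.M * δ) < (N + 1) / 2)
    (hx0 : x0 ∈ S.X ∅) (hflow : ∀ D ∈ S.big, S.f D x0 * T = Φ0 D)
    (hlow : ∀ D ∈ S.big, 1 - δ ≤ S.f D x0) (hcost : S.cost ∅ x0 ≤ κ)
    {F : Finset L} {Φ : L → ℕ} {q : ℕ} (h : S.Reach T Φ0 F Φ q) :
    ∃ x, S.Good κ δ F Φ q x := by
  induction h with
  | init =>
      exact ⟨x0, by simp, hT, hx0, fun D hD _ => hflow D hD, fun D hD _ => hlow D hD,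
        by simpa using hcost⟩
  | step F Φ q y a c D _ hy hD hDF ha hmin ih =>
      obtain ⟨x, hx⟩ := ih
      exact hx.step hδ hκ hs hy hD hDF ha hmin

theorem Reach.cost_le {κ δ : ℝ} {N : ℤ} {T : ℕ} {Φ0 : L → ℕ} {x0 : E} (hT : 0 < T) (hδ : 0 ≤ δ)
    (hκ : (N : ℝ) / 2 ≤ κ) (hs : κ + S.big.card * (S.M * δ) < (N + 1) / 2)
    (hx0 : x0 ∈ S.X ∅) (hflow : ∀ D ∈ S.big, S.f D x0 * T = Φ0 D)
    (hlow : ∀ D ∈ S.big, 1 - δ ≤ S.f D x0) (hcost : S.cost ∅ x0 ≤ κ)
    {F : Finset L} {Φ : L → ℕ} {q : ℕ} (h : S.Reach T Φ0 F Φ q)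
    {y : E} {a : L → ℕ} {c : ℤ} (hy : S.Opt F y a c) : c ≤ N := by
  obtain ⟨x, hx⟩ := h.good hT hδ hκ hs hx0 hflow hlow hcost
  exact hx.cost_le hδ hs hy

/-- Growth of the numbers. -/
theorem Reach.size {T m : ℕ} {Φ0 : L → ℕ} {x0 : E} {κ δ : ℝ} {N : ℤ} (hT : 0 < T) (hδ : 0 ≤ δ)
    (hκ : (N : ℝ) / 2 ≤ κ) (hs : κ + S.big.card * (S.M * δ) < (N + 1) / 2)
    (hx0 : x0 ∈ S.X ∅) (hflow : ∀ D ∈ S.big, S.f D x0 * T = Φ0 D)
    (hlow : ∀ D ∈ S.big, 1 - δ ≤ S.f D x0) (hcost : S.cost ∅ x0 ≤ κ)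
    (hm : ∀ F, ∀ x ∈ S.X F, ∀ D ∈ S.big, D ∉ F → S.f D x ≤ m) (hm1 : 1 ≤ m)
    {F : Finset L} {Φ : L → ℕ} {q : ℕ} (h : S.Reach T Φ0 F Φ q) :
    q ≤ m ^ F.card * T ∧ ∀ D ∈ S.big, D ∉ F → Φ D ≤ m * q := by
  have key : ∀ {F : Finset L} {Φ : L → ℕ} {q : ℕ}, S.Reach T Φ0 F Φ q →
      ∀ D ∈ S.big, D ∉ F → Φ D ≤ m * q := by
    intro F Φ q h D hD hDF
    obtain ⟨x, hx⟩ := h.good hT hδ hκ hs hx0 hflow hlow hcost
    have h1 := hx.flow D hD hDF
    have h2 := hm F x hx.mem D hD hDF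
    have h3 : (Φ D : ℝ) ≤ m * q := by
      rw [← h1]
      exact mul_le_mul_of_nonneg_right h2 (Nat.cast_nonneg _)
    exact_mod_cast h3
  refine ⟨?_, key h⟩
  induction h with
  | init => simp
  | step F Φ q y a c D hr hy hD hDF ha hmin ih =>
      have h1 := key hr D hD hDF
      rw [Finset.card_insert_of_notMem hDF, pow_succ]
      apply max_le
      · calc q ≤ m ^ F.card * T := ih
          _ ≤ m ^ F.card * m * T := by
            apply Nat.mul_le_mul_right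
            exact Nat.le_mul_of_pos_right _ hm1
      · calc Φ D ≤ m * q := h1
          _ ≤ m * (m ^ F.card * T) := Nat.mul_le_mul_left _ ih
          _ = m ^ F.card * m * T := by ring

end Sys

end Vale.Agent.P333.H359
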