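import Mathlib
import Vale.Agent.P333.H359.Proc

set_option linter.all false

/-!
P333, ratio 2: fractional solutions on strings, contraction, integral optima.
-/

namespace Vale.Agent.P333.H359

open Finset

/-- The data: strings `V`, circles `L`. -/
structure FD (V L : Type) [Fintype V] [DecidableEq V] [DecidableEq L] where
  /-- the circle of a string -/
  lab : V → L
  /-- the big circles -/
  big : Finset L
  /-- length -/
  len : V → ℕ
  /-- overlap -/
  ov : V → V → ℕ
  /-- overlap with the successor -/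
  eps : V → ℕ
  /-- overlap with the predecessor -/
  epsm : V → ℕ
  /-- weights of the big circles -/
  w : L → ℕ
  /-- least overlap of the big circles -/
  e : L → ℕ
  /-- bound -/
  M : ℕ
  ne : ∀ D ∈ big, ∃ v, lab v = D
  w_eq : ∀ D ∈ big, w D + ∑ v ∈ univ.filter (fun v => lab v = D), eps v =
    ∑ v ∈ univ.filter (fun v => lab v = D), len v
  sum_eq : ∀ D ∈ big, ∑ v ∈ univ.filter (fun v => lab v = D), epsm v =
    ∑ v ∈ univ.filter (fun v => lab v = D), eps v
  f2 : ∀ D ∈ big, ∀ u v, lab u = D → lab v = D → 2 * ov u v ≤ eps u + epsm v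
  le_M : ∀ D ∈ big, e D ≤ w D + M

variable {V L : Type} [Fintype V] [DecidableEq V] [DecidableEq L] (P : FD V L)

namespace FD

/-- The gain of an arc (doubled). -/
def g (F : Finset L) (u v : V) : ℤ :=
  if P.lab u ∈ F ∧ P.lab v = P.lab u then 2 * (P.w (P.lab u) : ℤ) - 2 * P.e (P.lab u)
  else 2 * (P.ov u v : ℤ) - (if P.lab u ∈ F then (P.eps u : ℤ) else 0) -
    (if P.lab v ∈ F then (P.epsm v : ℤ) else 0)

/-- The constant part of the cost (doubled). -/
def K (F : Finset L) : ℤ :=
  ∑ u ∈ univ.filter (fun u => P.lab u ∉ F), 2 * (P.len u : ℤ) + ∑ D ∈ F, 2 * (P.w D : ℤ)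

/-- The cost of a fractional solution. -/
noncomputable def cost (F : Finset L) (x : V → V → ℝ) : ℝ :=
  ((P.K F : ℝ) - ∑ u, ∑ v, x u v * (P.g F u v : ℝ)) / 2

/-- The flow leaving a circle. -/
noncomputable def f (D : L) (x : V → V → ℝ) : ℝ :=
  ∑ u ∈ univ.filter (fun u => P.lab u = D), ∑ v ∈ univ.filter (fun v => P.lab v ≠ D), x u v

/-- Fractional solutions. -/
structure Feas (F : Finset L) (x : V → V → ℝ) : Prop where
  nonneg : ∀ u v, 0 ≤ x u v
  row : ∀ u, P.lab u ∉ F → ∑ v, x u v = 1
  col : ∀ v, P.lab v ∉ F → ∑ u, x u v = 1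
  crow : ∀ D ∈ F, ∑ u ∈ univ.filter (fun u => P.lab u = D), ∑ v, x u v = 1
  ccol : ∀ D ∈ F, ∑ v ∈ univ.filter (fun v => P.lab v = D), ∑ u, x u v = 1

variable {P}

theorem Feas.mix {F : Finset L} {x y : V → V → ℝ} (hx : P.Feas F x) (hy : P.Feas F y) {θ : ℝ}
    (h0 : 0 ≤ θ) (h1 : θ ≤ 1) : P.Feas F ((1 - θ) • x + θ • y) := by
  have e : ∀ u v, ((1 - θ) • x + θ • y) u v = (1 - θ) * x u v + θ * y u v := fun u v => rfl
  constructor
  · intro u v
    rw [e]
    have := hx.nonneg u v
    have := hy.nonneg u v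
    have : 0 ≤ 1 - θ := by linarith
    positivity
  · intro u hu
    simp only [e, sum_add_distrib, ← mul_sum]
    rw [hx.row u hu, hy.row u hu]; ring
  · intro u hu
    simp only [e, sum_add_distrib, ← mul_sum]
    rw [hx.col u hu, hy.col u hu]; ring
  · intro D hD
    simp only [e, sum_add_distrib, ← mul_sum]
    rw [hx.crow D hD, hy.crow D hD]; ring
  · intro D hD
    simp only [e, sum_add_distrib, ← mul_sum]
    rw [hx.ccol D hD, hy.ccol D hD]; ring

theorem cost_mix (F : Finset L) (x y : V → V → ℝ) (θ : ℝ) :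
    P.cost F ((1 - θ) • x + θ • y) = (1 - θ) * P.cost F x + θ * P.cost F y := by
  have e : ∀ u v, ((1 - θ) • x + θ • y) u v = (1 - θ) * x u v + θ * y u v := fun u v => rfl
  unfold cost
  simp only [e, add_mul, mul_assoc, sum_add_distrib, ← mul_sum]
  ring

theorem f_mix (D : L) (x y : V → V → ℝ) (θ : ℝ) :
    P.f D ((1 - θ) • x + θ • y) = (1 - θ) * P.f D x + θ * P.f D y := by
  have e : ∀ u v, ((1 - θ) • x + θ • y) u v = (1 - θ) * x u v + θ * y u v := fun u v => rfl
  unfold f
  simp only [e, sum_add_distrib, ← mul_sum]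

/-- Flow in = flow out. -/
theorem Feas.flow_in {F : Finset L} {x : V → V → ℝ} (hx : P.Feas F x) {D : L} (hD : D ∉ F) :
    ∑ v ∈ univ.filter (fun v => P.lab v = D), ∑ u ∈ univ.filter (fun u => P.lab u ≠ D), x u v =
      P.f D x := by
  have h1 : ∑ u ∈ univ.filter (fun u => P.lab u = D), ∑ v, x u v =
      ∑ v ∈ univ.filter (fun v => P.lab v = D), ∑ u, x u v := by
    rw [sum_congr rfl (fun u hu => hx.row u (by rw [(mem_filter.1 hu).2]; exact hD)),
      sum_congr rfl (fun u hu => hx.col u (by rw [(mem_filter.1 hu).2]; exact hD))]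
  have h2 : ∑ u ∈ univ.filter (fun u => P.lab u = D), ∑ v, x u v =
      ∑ u ∈ univ.filter (fun u => P.lab u = D), ∑ v ∈ univ.filter (fun v => P.lab v = D), x u v +
      P.f D x := by
    unfold f
    rw [← sum_add_distrib]
    exact sum_congr rfl fun u _ => (sum_filter_add_sum_filter_not univ (fun v => P.lab v = D) _).symm
  have h3 : ∑ v ∈ univ.filter (fun v => P.lab v = D), ∑ u, x u v =
      ∑ v ∈ univ.filter (fun v => P.lab v = D), ∑ u ∈ univ.filter (fun u => P.lab u = D), x u v +
      ∑ v ∈ univ.filter (fun v => P.lab v = D), ∑ u ∈ univ.filter (fun u => P.lab u ≠ D), x u v := by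
    rw [← sum_add_distrib]
    exact sum_congr rfl fun u _ => (sum_filter_add_sum_filter_not univ (fun v => P.lab v = D) _).symm
  have h4 : ∑ v ∈ univ.filter (fun v => P.lab v = D), ∑ u ∈ univ.filter (fun u => P.lab u = D),
      x u v = ∑ u ∈ univ.filter (fun u => P.lab u = D),
        ∑ v ∈ univ.filter (fun v => P.lab v = D), x u v := sum_comm
  linarith

/-- The contracted solution. -/
noncomputable def con (P : FD V L) (D : L) (a : V) (x : V → V → ℝ) (u v : V) : ℝ :=
  if P.lab u = D ∧ P.lab v = D then (if u = a ∧ v = a then 1 - P.f D x else 0) else x u v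

theorem con_of_left {D : L} {a : V} {x : V → V → ℝ} {u : V} (hu : P.lab u ≠ D) (v : V) :
    P.con D a x u v = x u v := by simp [con, hu]

theorem con_of_right {D : L} {a : V} {x : V → V → ℝ} {v : V} (hv : P.lab v ≠ D) (u : V) :
    P.con D a x u v = x u v := by simp [con, hv]

theorem sum_con_in {D : L} {a : V} (ha : P.lab a = D) {x : V → V → ℝ} (c : V → V → ℝ) :
    ∑ u ∈ univ.filter (fun u => P.lab u = D), ∑ v ∈ univ.filter (fun v => P.lab v = D),
      P.con D a x u v * c u v = (1 - P.f D x) * c a a := by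
  rw [sum_eq_single_of_mem a (by simp [ha])]
  · rw [sum_eq_single_of_mem a (by simp [ha])]
    · simp [con, ha]
    · intro v hv hva
      simp [con, ha, (mem_filter.1 hv).2, hva]
  · intro u hu hua
    apply sum_eq_zero
    intro v hv
    simp [con, (mem_filter.1 hu).2, (mem_filter.1 hv).2, hua]

theorem f_con {D D' : L} {a : V} {x : V → V → ℝ} (h : D' ≠ D) :
    P.f D' (P.con D a x) = P.f D' x := by
  unfold f
  refine sum_congr rfl fun u hu => sum_congr rfl fun v _ => con_of_left ?_ v
  rw [(mem_filter.1 hu).2]; exact h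

theorem Feas.con {F : Finset L} {x : V → V → ℝ} (hx : P.Feas F x) {D : L} (hD : D ∉ F)
    {a : V} (ha : P.lab a = D) (hf : P.f D x ≤ 1) : P.Feas (insert D F) (P.con D a x) := by
  have hin := sum_con_in (x := x) ha (fun _ _ => 1)
  simp only [mul_one] at hin
  constructor
  · intro u v
    unfold FD.con
    split_ifs
    · linarith
    · exact le_rfl
    · exact hx.nonneg u v
  · intro u hu
    rw [mem_insert, not_or] at hu
    rw [← hx.row u hu.2]
    exact sum_congr rfl fun v _ => con_of_left hu.1 v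
  · intro v hv
    rw [mem_insert, not_or] at hv
    rw [← hx.col v hv.2]
    exact sum_congr rfl fun u _ => con_of_right hv.1 u
  · intro D' hD'
    by_cases h : D' = D
    · subst h
      have h2 : ∑ u ∈ univ.filter (fun u => P.lab u = D'), ∑ v, P.con D' a x u v =
          ∑ u ∈ univ.filter (fun u => P.lab u = D'),
            ∑ v ∈ univ.filter (fun v => P.lab v = D'), P.con D' a x u v +
          ∑ u ∈ univ.filter (fun u => P.lab u = D'),
            ∑ v ∈ univ.filter (fun v => P.lab v ≠ D'), P.con D' a x u v := by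
        rw [← sum_add_distrib]
        exact sum_congr rfl fun u _ =>
          (sum_filter_add_sum_filter_not univ (fun v => P.lab v = D') _).symm
      have h3 : ∑ u ∈ univ.filter (fun u => P.lab u = D'),
            ∑ v ∈ univ.filter (fun v => P.lab v ≠ D'), P.con D' a x u v = P.f D' x :=
        sum_congr rfl fun u _ => sum_congr rfl fun v hv => con_of_right (mem_filter.1 hv).2 u
      rw [h2, h3, hin]
      ring
    · rw [← hx.crow D' ((mem_insert.1 hD').resolve_left h)]
      refine sum_congr rfl fun u hu => sum_congr rfl fun v _ => con_of_left ?_ v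
      rw [(mem_filter.1 hu).2]; exact h
  · intro D' hD'
    by_cases h : D' = D
    · subst h
      have h2 : ∑ v ∈ univ.filter (fun v => P.lab v = D'), ∑ u, P.con D' a x u v =
          ∑ v ∈ univ.filter (fun v => P.lab v = D'),
            ∑ u ∈ univ.filter (fun u => P.lab u = D'), P.con D' a x u v +
          ∑ v ∈ univ.filter (fun v => P.lab v = D'),
            ∑ u ∈ univ.filter (fun u => P.lab u ≠ D'), P.con D' a x u v := by
        rw [← sum_add_distrib]
        exact sum_congr rfl fun u _ =>
          (sum_filter_add_sum_filter_not univ (fun v => P.lab v = D') _).symm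
      have h3 : ∑ v ∈ univ.filter (fun v => P.lab v = D'),
            ∑ u ∈ univ.filter (fun u => P.lab u ≠ D'), P.con D' a x u v = P.f D' x := by
        rw [← hx.flow_in hD]
        exact sum_congr rfl fun v _ => sum_congr rfl fun u hu => con_of_left (mem_filter.1 hu).2 v
      rw [h2, h3, sum_comm, hin]
      ring
    · rw [← hx.ccol D' ((mem_insert.1 hD').resolve_left h)]
      refine sum_congr rfl fun v hv => sum_congr rfl fun u _ => con_of_right ?_ u
      rw [(mem_filter.1 hv).2]; exact h

/-- The constant after a contraction. -/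
theorem K_insert {F : Finset L} {D : L} (hb : D ∈ P.big) (hD : D ∉ F) :
    P.K (insert D F) = P.K F - 2 * ∑ v ∈ univ.filter (fun v => P.lab v = D), (P.eps v : ℤ) := by
  unfold K
  rw [sum_insert hD]
  have h1 : ∑ u ∈ univ.filter (fun u => P.lab u ∉ F), 2 * (P.len u : ℤ) =
      ∑ u ∈ univ.filter (fun u => P.lab u ∉ insert D F), 2 * (P.len u : ℤ) +
        ∑ u ∈ univ.filter (fun u => P.lab u = D), 2 * (P.len u : ℤ) := by
    rw [← sum_union]
    · apply sum_congr _ fun _ _ => rfl
      ext u
      simp only [mem_filter, mem_univ, true_and, mem_union, mem_insert, not_or]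
      constructor
      · intro h
        by_cases h' : P.lab u = D
        · exact Or.inr h'
        · exact Or.inl ⟨h', h⟩
      · rintro (h | h)
        · exact h.2
        · rw [h]; exact hD
    · rw [disjoint_filter]
      intro u _ h h'
      rw [h'] at h
      exact h (mem_insert_self D F)
  have h2 : (P.w D : ℤ) + ∑ v ∈ univ.filter (fun v => P.lab v = D), (P.eps v : ℤ) =
      ∑ v ∈ univ.filter (fun v => P.lab v = D), (P.len v : ℤ) := by
    exact_mod_cast P.w_eq D hb
  rw [h1]
  simp only [← mul_sum]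
  rw [← h2]
  ring

theorem g_insert {F : Finset L} {D : L} (hD : D ∉ F) {u v : V}
    (h : ¬ (P.lab u = D ∧ P.lab v = D)) :
    P.g (insert D F) u v = P.g F u v - (if P.lab u = D then (P.eps u : ℤ) else 0) -
      (if P.lab v = D then (P.epsm v : ℤ) else 0) := by
  unfold g
  by_cases hu : P.lab u = D
  · have hv : P.lab v ≠ D := fun hv => h ⟨hu, hv⟩
    have hu' : P.lab u ∉ F := by rw [hu]; exact hD
    have h1 : ¬ (P.lab u ∈ insert D F ∧ P.lab v = P.lab u) := by
      rintro ⟨_, h2⟩; exact hv (h2.trans hu)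
    have h2 : ¬ (P.lab u ∈ F ∧ P.lab v = P.lab u) := fun h2 => hu' h2.1
    have h3 : P.lab u ∈ insert D F := by rw [hu]; exact mem_insert_self _ _
    rw [if_neg h1, if_neg h2, if_pos h3, if_neg hu', if_pos hu, if_neg hv]
    simp only [mem_insert, hv, false_or]
    ring
  · have h3 : P.lab u ∈ insert D F ↔ P.lab u ∈ F := by simp [hu]
    by_cases hv : P.lab v = D
    · have hv' : P.lab v ∉ F := by rw [hv]; exact hD
      have h1 : ¬ (P.lab u ∈ insert D F ∧ P.lab v = P.lab u) := by
        rintro ⟨_, h2⟩; exact hu (h2.symm.trans hv)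
      have h2 : ¬ (P.lab u ∈ F ∧ P.lab v = P.lab u) := by
        rintro ⟨_, h2⟩; exact hu (h2.symm.trans hv)
      have h4 : P.lab v ∈ insert D F := by rw [hv]; exact mem_insert_self _ _
      rw [if_neg h1, if_neg h2, if_pos h4, if_neg hv', if_neg hu, if_pos hv]
      simp only [h3]
      ring
    · have h4 : P.lab v ∈ insert D F ↔ P.lab v ∈ F := by simp [hv]
      simp only [h3, h4, hu, hv, if_false, sub_zero]

theorem Feas.cost_con {F : Finset L} {x : V → V → ℝ} (hx : P.Feas F x) {D : L} (hb : D ∈ P.big)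
    (hD : D ∉ F) {a : V} (ha : P.lab a = D) (hf : P.f D x ≤ 1) :
    P.cost (insert D F) (P.con D a x) ≤ P.cost F x + P.M * (1 - P.f D x) := by
  have hK : (P.K (insert D F) : ℝ) =
      P.K F - 2 * ∑ v ∈ univ.filter (fun v => P.lab v = D), (P.eps v : ℝ) := by
    rw [K_insert hb hD]; push_cast; ring
  -- the sum of the new gains
  have h1 : ∑ u, ∑ v, P.con D a x u v * (P.g (insert D F) u v : ℝ) =
      (1 - P.f D x) * (P.g (insert D F) a a : ℝ) +
        ∑ u, ∑ v, (if P.lab u = D ∧ P.lab v = D then 0 else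
          x u v * (P.g (insert D F) u v : ℝ)) := by
    rw [← sum_con_in (x := x) ha (fun u v => (P.g (insert D F) u v : ℝ)), sum_filter,
      ← sum_add_distrib]
    apply sum_congr rfl
    intro u _
    by_cases hu : P.lab u = D
    · rw [if_pos hu, sum_filter, ← sum_add_distrib]
      apply sum_congr rfl
      intro v _
      by_cases hv : P.lab v = D
      · simp [hu, hv]
      · simp [hv, con_of_right hv u]
    · rw [if_neg hu, zero_add]
      apply sum_congr rfl
      intro v _
      simp [hu, con_of_left hu v]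
  have h2 : ∑ u, ∑ v, (x u v * (P.g F u v : ℝ) - (if P.lab u = D then (P.eps u : ℝ) else 0) * x u v
      - (if P.lab v = D then (P.epsm v : ℝ) else 0) * x u v) ≤
      ∑ u, ∑ v, (if P.lab u = D ∧ P.lab v = D then 0 else x u v * (P.g (insert D F) u v : ℝ)) := by
    apply sum_le_sum
    intro u _
    apply sum_le_sum
    intro v _
    by_cases h : P.lab u = D ∧ P.lab v = D
    · rw [if_pos h, if_pos h.1, if_pos h.2]
      have h3 : (P.g F u v : ℝ) = 2 * P.ov u v := by
        have hu : P.lab u ∉ F := by rw [h.1]; exact hD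
        have hv : P.lab v ∉ F := by rw [h.2]; exact hD
        unfold g
        rw [if_neg (fun h' => hu h'.1), if_neg hu, if_neg hv]
        push_cast; ring
      have h4 : (2 * P.ov u v : ℝ) ≤ P.eps u + P.epsm v := by
        exact_mod_cast P.f2 D hb u v h.1 h.2
      rw [h3]
      nlinarith [hx.nonneg u v]
    · rw [if_neg h, g_insert hD h]
      push_cast
      apply le_of_eq
      split_ifs <;> ring
  have h3 : ∑ u, ∑ v, (if P.lab u = D then (P.eps u : ℝ) else 0) * x u v =
      ∑ v ∈ univ.filter (fun v => P.lab v = D), (P.eps v : ℝ) := by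
    rw [sum_filter]
    apply sum_congr rfl
    intro u _
    rw [← mul_sum]
    split_ifs with hu
    · rw [hx.row u (by rw [hu]; exact hD), mul_one]
    · simp
  have h4 : ∑ u, ∑ v, (if P.lab v = D then (P.epsm v : ℝ) else 0) * x u v =
      ∑ v ∈ univ.filter (fun v => P.lab v = D), (P.eps v : ℝ) := by
    have h5 : ∑ v ∈ univ.filter (fun v => P.lab v = D), (P.epsm v : ℝ) =
      ∑ v ∈ univ.filter (fun v => P.lab v = D), (P.eps v : ℝ) := by
      exact_mod_cast P.sum_eq D hb
    rw [← h5, sum_comm, sum_filter]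
    apply sum_congr rfl
    intro v _
    rw [← mul_sum]
    split_ifs with hv
    · rw [hx.col v (by rw [hv]; exact hD), mul_one]
    · simp
  simp only [sum_sub_distrib] at h2
  rw [h3, h4] at h2
  have h5 : (P.g (insert D F) a a : ℝ) = 2 * P.w D - 2 * P.e D := by
    unfold g
    rw [if_pos ⟨by rw [ha]; exact mem_insert_self _ _, rfl⟩, ha]
    push_cast; ring
  have h6 : (P.e D : ℝ) ≤ P.w D + P.M := by exact_mod_cast P.le_M D hb
  unfold cost
  rw [hK, h1, h5]
  have h7 : (1 - P.f D x) * P.e D ≤ (1 - P.f D x) * (P.w D + P.M) :=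
    mul_le_mul_of_nonneg_left h6 (by linarith)
  nlinarith

/-- The system. -/
noncomputable def sys (P : FD V L) : Sys (V → V → ℝ) L where
  big := P.big
  X F := {x | P.Feas F x}
  cost := P.cost
  f := P.f
  M := P.M
  M_nonneg := Nat.cast_nonneg _
  mem F x y θ h0 h1 hx hy := Feas.mix hx hy h0 h1
  cost_mix F x y θ _ _ _ _ := FD.cost_mix F x y θ
  f_mix D x y θ := FD.f_mix D x y θ
  contract := by
    intro F D x hb hD hx hf
    obtain ⟨a, ha⟩ := P.ne D hb
    exact ⟨P.con D a x, Feas.con hx hD ha hf, Feas.cost_con hx hb hD ha hf,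
      fun D' _ hD' => f_con fun h => hD' (by rw [h]; exact mem_insert_self _ _)⟩

/-! ### Integral solutions -/

/-- An integral solution: `I` is the set of the nodes, arc `i` goes from `h i` to `a i`. -/
structure Int (P : FD V L) (F : Finset L) (I : Type) [Fintype I] [DecidableEq I] (ρ : V → I)
    (Y : Equiv.Perm I) (h a : I → V) : Prop where
  sub : F ⊆ P.big
  rho : ∀ u v, ρ u = ρ v ↔ u = v ∨ (P.lab u ∈ F ∧ P.lab v = P.lab u)
  exit : ∀ i, ρ (h i) = i
  entry : ∀ i, ρ (a i) = Y i

/-- The arcs of an integral solution as a fractional solution. -/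
noncomputable def emb {I : Type} [Fintype I] (h a : I → V) (u v : V) : ℝ :=
  ∑ i, if h i = u ∧ a i = v then 1 else 0

theorem sum_emb {I : Type} [Fintype I] (h a : I → V) (c : V → V → ℝ) :
    ∑ u, ∑ v, emb h a u v * c u v = ∑ i, c (h i) (a i) := by
  unfold emb
  simp only [sum_mul, ite_mul, one_mul, zero_mul]
  rw [sum_congr rfl (fun u _ => sum_comm), sum_comm]
  apply sum_congr rfl
  intro i _
  simp [ite_and]

theorem Int.feas {F : Finset L} {I : Type} [Fintype I] [DecidableEq I] {ρ : V → I}
    {Y : Equiv.Perm I} {h a : I → V} (H : Int P F I ρ Y h a) : P.Feas F (emb h a) := by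
  have hrow : ∀ c : V → ℝ, ∑ u, ∑ v, emb h a u v * c u = ∑ i, c (h i) := fun c =>
    sum_emb h a (fun u _ => c u)
  have hcol : ∀ c : V → ℝ, ∑ u, ∑ v, emb h a u v * c v = ∑ i, c (a i) := fun c =>
    sum_emb h a (fun _ v => c v)
  constructor
  · intro u v
    exact sum_nonneg fun i _ => by split_ifs <;> norm_num
  · intro u hu
    have h1 := hrow (fun x => if x = u then 1 else 0)
    simp only [mul_ite, mul_one, mul_zero] at h1
    have h2 : ∑ u', ∑ v, (if u' = u then emb h a u' v else 0) = ∑ v, emb h a u v := by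
      rw [sum_comm]
      exact sum_congr rfl fun v _ => by simp
    rw [← h2, h1, sum_eq_single (ρ u)]
    · rw [if_pos]
      rcases (H.rho (h (ρ u)) u).1 (H.exit (ρ u)) with h' | h'
      · exact h'
      · exact absurd (h'.2 ▸ h'.1) hu
    · intro i _ hi
      rw [if_neg]
      intro h'
      exact hi (by rw [← H.exit i, h'])
    · simp
  · intro v hv
    have h1 := hcol (fun x => if x = v then 1 else 0)
    simp only [mul_ite, mul_one, mul_zero] at h1
    have h2 : ∑ u, ∑ v', (if v' = v then emb h a u v' else 0) = ∑ u, emb h a u v :=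
      sum_congr rfl fun u _ => by simp
    rw [← h2, h1, sum_eq_single (Y.symm (ρ v))]
    · rw [if_pos]
      have h3 : ρ (a (Y.symm (ρ v))) = ρ v := by rw [H.entry, Equiv.apply_symm_apply]
      rcases (H.rho _ _).1 h3 with h' | h'
      · exact h'
      · exact absurd (h'.2 ▸ h'.1) hv
    · intro i _ hi
      rw [if_neg]
      intro h'
      apply hi
      rw [Equiv.eq_symm_apply, ← H.entry i, h']
    · simp
  · intro D hD
    obtain ⟨v0, hv0⟩ := P.ne D (H.sub hD)
    have h1 := hrow (fun x => if P.lab x = D then 1 else 0)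
    simp only [mul_ite, mul_one, mul_zero] at h1
    have h2 : ∑ u, ∑ v, (if P.lab u = D then emb h a u v else 0) =
        ∑ u ∈ univ.filter (fun u => P.lab u = D), ∑ v, emb h a u v := by
      rw [sum_filter]
      apply sum_congr rfl
      intro u _
      split_ifs <;> simp
    have key : ∀ i, P.lab (h i) = D ↔ i = ρ v0 := by
      intro i
      constructor
      · intro hi
        rw [← H.exit i, H.rho]
        exact Or.inr ⟨by rw [hi]; exact hD, by rw [hi, hv0]⟩
      · rintro rfl
        rcases (H.rho _ _).1 (H.exit (ρ v0)) with h' | h'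
        · rw [h', hv0]
        · rw [← h'.2, hv0]
    rw [← h2, h1, sum_eq_single (ρ v0)]
    · rw [if_pos ((key _).2 rfl)]
    · intro i _ hi
      rw [if_neg (fun h' => hi ((key i).1 h'))]
    · simp
  · intro D hD
    obtain ⟨v0, hv0⟩ := P.ne D (H.sub hD)
    have h1 := hcol (fun x => if P.lab x = D then 1 else 0)
    simp only [mul_ite, mul_one, mul_zero] at h1
    have h2 : ∑ u, ∑ v, (if P.lab v = D then emb h a u v else 0) =
        ∑ v ∈ univ.filter (fun v => P.lab v = D), ∑ u, emb h a u v := by
      rw [sum_filter, sum_comm]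
      apply sum_congr rfl
      intro u _
      split_ifs <;> simp
    have key : ∀ i, P.lab (a i) = D ↔ i = Y.symm (ρ v0) := by
      intro i
      rw [Equiv.eq_symm_apply, ← H.entry i]
      constructor
      · intro hi
        rw [H.rho]
        exact Or.inr ⟨by rw [hi]; exact hD, by rw [hi, hv0]⟩
      · intro hi
        rcases (H.rho _ _).1 hi with h' | h'
        · rw [h', hv0]
        · rw [← h'.2, hv0]
    rw [← h2, h1, sum_eq_single (Y.symm (ρ v0))]
    · rw [if_pos ((key _).2 rfl)]
    · intro i _ hi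
      rw [if_neg (fun h' => hi ((key i).1 h'))]
    · simp

theorem f_emb {I : Type} [Fintype I] (h a : I → V) (D : L) :
    P.f D (emb h a) = (univ.filter (fun i => P.lab (h i) = D ∧ P.lab (a i) ≠ D)).card := by
  have h1 := sum_emb h a (fun u v => if P.lab u = D ∧ P.lab v ≠ D then 1 else 0)
  rw [card_filter]
  push_cast
  rw [← h1]
  unfold f
  rw [sum_filter]
  apply sum_congr rfl
  intro u _
  by_cases hu : P.lab u = D
  · rw [if_pos hu, sum_filter]
    apply sum_congr rfl
    intro v _
    simp [hu]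
  · simp [hu]

/-- Fibres of `ρ`. -/
theorem Int.fib {F : Finset L} {I : Type} [Fintype I] [DecidableEq I] {ρ : V → I}
    {Y : Equiv.Perm I} {h a : I → V} (H : Int P F I ρ Y h a) (i : I) (c : V → ℝ)
    (h1 : ∀ u, P.lab u ∉ F → c u = 1)
    (h2 : ∀ D ∈ F, ∑ u ∈ univ.filter (fun u => P.lab u = D), c u = 1) :
    ∑ u ∈ univ.filter (fun u => ρ u = i), c u = 1 := by
  have hi := H.exit i
  by_cases hF : P.lab (h i) ∈ F
  · rw [← h2 _ hF]
    apply sum_congr _ fun _ _ => rfl
    ext u
    simp only [mem_filter, mem_univ, true_and]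
    rw [← hi, eq_comm, H.rho, hi]
    constructor
    · rintro (h' | h')
      · rw [h']
      · exact h'.2
    · intro h'
      exact Or.inr ⟨hF, h'⟩
  · have : univ.filter (fun u => ρ u = i) = {h i} := by
      ext u
      simp only [mem_filter, mem_univ, true_and, mem_singleton]
      rw [← hi, eq_comm, H.rho, hi]
      constructor
      · rintro (h' | h')
        · exact h'.symm
        · exact absurd h'.1 hF
      · intro h'
        exact Or.inl h'.symm
    rw [this, sum_singleton, h1 _ hF]

/-- THE INTEGRAL OPTIMUM is at most the cost of every fractional solution (Birkhoff). -/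
theorem Int.opt {F : Finset L} {I : Type} [Fintype I] [DecidableEq I] {ρ : V → I}
    {Y : Equiv.Perm I} {h a : I → V} (H : Int P F I ρ Y h a) (G : I → I → ℤ)
    (hG : ∀ u v, P.g F u v ≤ G (ρ u) (ρ v)) (hY : ∀ i, G i (Y i) = P.g F (h i) (a i))
    (hopt : ∀ Y' : Equiv.Perm I, ∑ i, G i (Y' i) ≤ ∑ i, G i (Y i)) :
    (P.sys).Opt F (emb h a)
      (fun D => (univ.filter (fun i => P.lab (h i) = D ∧ P.lab (a i) ≠ D)).card)
      (P.K F - ∑ i, G i (Y i)) := by
  have hc : ∑ u, ∑ v, emb h a u v * (P.g F u v : ℝ) = ∑ i, (G i (Y i) : ℝ) := by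
    rw [sum_emb]
    exact sum_congr rfl fun i _ => by rw [hY]
  refine ⟨H.feas, fun D _ _ => f_emb h a D, ?_, ?_⟩
  · show 2 * P.cost F (emb h a) = _
    unfold cost
    rw [hc]
    push_cast
    ring
  · intro x hx
    have hx : P.Feas F x := hx
    show P.cost F (emb h a) ≤ P.cost F x
    unfold cost
    rw [hc]
    have h1 : ∑ u, ∑ v, x u v * (P.g F u v : ℝ) ≤ ∑ u, ∑ v, x u v * (G (ρ u) (ρ v) : ℝ) :=
      sum_le_sum fun u _ => sum_le_sum fun v _ =>
        mul_le_mul_of_nonneg_left (by exact_mod_cast hG u v) (hx.nonneg u v)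
    -- the class matrix
    obtain ⟨M, hM⟩ : ∃ M : Matrix I I ℝ, ∀ i j, M i j =
      ∑ u ∈ univ.filter (fun u => ρ u = i), ∑ v ∈ univ.filter (fun v => ρ v = j), x u v :=
      ⟨Matrix.of fun i j => _, fun i j => rfl⟩
    have hMd : M ∈ doublyStochastic ℝ I := by
      rw [mem_doublyStochastic_iff_sum]
      refine ⟨fun i j => ?_, fun i => ?_, fun j => ?_⟩
      · rw [hM]
        exact sum_nonneg fun u _ => sum_nonneg fun v _ => hx.nonneg u v
      · simp only [hM]
        rw [sum_comm]
        rw [← H.fib i (fun u => ∑ v, x u v) hx.row hx.crow]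
        apply sum_congr rfl
        intro u _
        exact sum_fiberwise univ ρ (fun v => x u v)
      · simp only [hM]
        rw [sum_fiberwise univ ρ (fun u => ∑ v ∈ univ.filter (fun v => ρ v = j), x u v), sum_comm]
        exact H.fib j (fun v => ∑ u, x u v) hx.col hx.ccol
    have h2 : ∑ u, ∑ v, x u v * (G (ρ u) (ρ v) : ℝ) = ∑ i, ∑ j, M i j * (G i j : ℝ) := by
      rw [← sum_fiberwise univ ρ]
      apply sum_congr rfl
      intro i _
      rw [← sum_congr rfl (fun u _ => sum_fiberwise univ ρ (fun v => x u v * (G (ρ u) (ρ v) : ℝ))),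
        sum_comm]
      apply sum_congr rfl
      intro j _
      rw [hM, sum_mul]
      apply sum_congr rfl
      intro u hu
      rw [sum_mul]
      apply sum_congr rfl
      intro v hv
      rw [(mem_filter.1 hu).2, (mem_filter.1 hv).2]
    obtain ⟨w, hw0, hw1, hw⟩ := exists_eq_sum_perm_of_mem_doublyStochastic hMd
    have h3 : ∑ i, ∑ j, M i j * (G i j : ℝ) = ∑ σ : Equiv.Perm I, w σ * ∑ i, (G i (σ i) : ℝ) := by
      rw [← hw]
      simp only [Matrix.sum_apply, Matrix.smul_apply, smul_eq_mul, sum_mul]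
      rw [sum_congr rfl (fun i _ => sum_comm), sum_comm]
      apply sum_congr rfl
      intro σ _
      rw [mul_sum]
      apply sum_congr rfl
      intro i _
      rw [sum_eq_single (σ i)]
      · simp [Equiv.Perm.permMatrix, PEquiv.toMatrix_apply, Equiv.toPEquiv_apply]
      · intro j _ hj
        have : σ i ≠ j := Ne.symm hj
        simp [Equiv.Perm.permMatrix, PEquiv.toMatrix_apply, Equiv.toPEquiv_apply, this]
      · simp
    have h4 : ∑ σ : Equiv.Perm I, w σ * ∑ i, (G i (σ i) : ℝ) ≤
        ∑ σ : Equiv.Perm I, w σ * ∑ i, (G i (Y i) : ℝ) := by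
      apply sum_le_sum
      intro σ _
      apply mul_le_mul_of_nonneg_left _ (hw0 σ)
      exact_mod_cast hopt σ
    rw [← sum_mul, hw1, one_mul] at h4
    rw [h2, h3] at h1
    linarith

end FD

end Vale.Agent.P333.H359
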