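import Mathlib
import Vale.Agent.P333.Y.Defs
import Vale.Agent.P333.G.Opt
import Vale.Agent.P333.H196.Circ
import Vale.Agent.P333.H359.Flow

set_option linter.all false

/-!
P333, ratio 2: the flow data of a minimum cover. `V = Fin L.flatten.length`, labels = indices of
the circles in `L`.
-/

namespace Vale.Agent.P333.H359

open Finset Vale.Agent.P333 Vale.Agent.P333.U Vale.Agent.P333.G

/-- Overlap with the successor in the circle `c`. -/
def epsS (c : List (List ℕ)) (s : List ℕ) : ℕ :=
  (((cprs [] c).find? (fun e => decide (e.1 = s))).map (fun e => ov e.1 e.2)).getD 0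

/-- Overlap with the predecessor in the circle `c`. -/
def epmS (c : List (List ℕ)) (s : List ℕ) : ℕ :=
  (((cprs [] c).find? (fun e => decide (e.2 = s))).map (fun e => ov e.1 e.2)).getD 0

theorem find_key {α β : Type*} [DecidableEq β] (f : α → β) (l : List α) (h : (l.map f).Nodup)
    {x : α} (hx : x ∈ l) : l.find? (fun e => decide (f e = f x)) = some x := by
  cases h' : l.find? (fun e => decide (f e = f x)) with
  | none =>
    rw [List.find?_eq_none] at h'
    exact absurd (by simp) (h' x hx)
  | some y =>
    have h1 := List.mem_of_find?_eq_some h'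
    have h2 := List.find?_some h'
    rw [List.inj_on_of_nodup_map h h1 hx (by simpa using h2)]

theorem epsS_of {c : List (List ℕ)} (hc : c.Nodup) {e : List ℕ × List ℕ} (he : e ∈ cprs [] c) :
    epsS c e.1 = ov e.1 e.2 := by
  unfold epsS
  rw [find_key Prod.fst (cprs [] c) (by rw [cprs_fst]; exact hc) he]
  rfl

theorem epmS_of {c : List (List ℕ)} (hc : c.Nodup) {e : List ℕ × List ℕ} (he : e ∈ cprs [] c) :
    epmS c e.2 = ov e.1 e.2 := by
  unfold epmS
  rw [find_key Prod.snd (cprs [] c) ((cprs_snd [] c).nodup_iff.2 hc) he]
  rfl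

theorem sum_epsS {c : List (List ℕ)} (hc : c.Nodup) :
    (c.map (epsS c)).sum = ((cprs [] c).map (fun e => ov e.1 e.2)).sum := by
  conv_lhs => rw [← cprs_fst [] c, List.map_map]
  congr 1
  conv_lhs => rw [cprs_fst]
  exact List.map_congr_left fun e he => epsS_of hc he

theorem sum_epmS {c : List (List ℕ)} (hc : c.Nodup) :
    (c.map (epmS c)).sum = ((cprs [] c).map (fun e => ov e.1 e.2)).sum := by
  rw [← ((cprs_snd [] c).map (epmS c)).sum_eq, List.map_map]
  congr 1
  exact List.map_congr_left fun e he => epmS_of hc he

variable {S : List (List ℕ)} {L : List (List (List ℕ))}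

/-- The strings. -/
abbrev VS (L : List (List (List ℕ))) : Type := Fin L.flatten.length

/-- The string with the index `v`. -/
def str (L : List (List (List ℕ))) (v : VS L) : List ℕ := L.flatten.get v

/-- The index of the circle. -/
def labV (L : List (List (List ℕ))) (v : VS L) : ℕ := Y.lab L (str L v)

/-- The circle. -/
def cir (L : List (List (List ℕ))) (v : VS L) : List (List ℕ) := L.getD (labV L v) []

theorem lab_of_mem (hS : Sfree S) (hL : MinCover S L) {k : ℕ} (hk : k < L.length) {s : List ℕ}
    (hs : s ∈ L[k]) : Y.lab L s = k := by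
  unfold Y.lab
  rw [List.findIdx_eq hk]
  refine ⟨by simpa using hs, fun j hj => ?_⟩
  have hj' : j < L.length := by omega
  simp only [decide_eq_false_iff_not]
  intro hsj
  have h1 := cyc_unique hS hL (List.getElem_mem hj') (List.getElem_mem hk) hsj hs
  have h2 := (L_nodup hS hL).getElem_inj_iff.1 h1
  omega

theorem lab_lt (L : List (List (List ℕ))) {s : List ℕ} (hs : s ∈ L.flatten) :
    Y.lab L s < L.length := by
  obtain ⟨c, hc, hsc⟩ := List.mem_flatten.1 hs
  unfold Y.lab
  exact List.findIdx_lt_length_of_exists ⟨c, hc, by simpa using hsc⟩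

theorem mem_lab (L : List (List (List ℕ))) {s : List ℕ} (hs : s ∈ L.flatten) :
    s ∈ L.getD (Y.lab L s) [] := by
  have h := lab_lt L hs
  rw [List.getD_eq_getElem _ _ h]
  have h2 := List.findIdx_getElem (w := h) (p := fun c => decide (s ∈ c)) (xs := L)
  exact of_decide_eq_true h2

theorem str_mem (v : VS L) : str L v ∈ L.flatten := List.get_mem _ _

theorem str_mem_cir (v : VS L) : str L v ∈ cir L v := mem_lab L (str_mem v)

theorem labV_lt (v : VS L) : labV L v < L.length := lab_lt L (str_mem v)

theorem cir_mem (v : VS L) : cir L v ∈ L := by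
  unfold cir
  rw [List.getD_eq_getElem _ _ (labV_lt v)]
  exact List.getElem_mem _

/-- Filtering the strings of one circle. -/
theorem filter_flatten (hS : Sfree S) (hL : MinCover S L) {k : ℕ} (hk : k < L.length) :
    L.flatten.filter (fun s => decide (Y.lab L s = k)) = L.getD k [] := by
  have key : ∀ (l : List (List (List ℕ))) (i : ℕ), (∀ j (hj : j < l.length), ∀ s ∈ l[j],
      Y.lab L s = i + j) → l.flatten.filter (fun s => decide (Y.lab L s = k)) =
        if i ≤ k then l.getD (k - i) [] else [] := by
    intro l
    induction l with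
    | nil => intro i _; simp
    | cons c l ih =>
      intro i h
      have h0 := h 0 (by simp)
      simp only [List.getElem_cons_zero, Nat.add_zero] at h0
      have h1 := ih (i + 1) (by
        intro j hj s hs
        have := h (j + 1) (by simpa using hj) s (by simpa using hs)
        omega)
      rw [List.flatten_cons, List.filter_append, h1]
      rcases lt_trichotomy i k with hik | hik | hik
      · have h2 : c.filter (fun s => decide (Y.lab L s = k)) = [] := by
          rw [List.filter_eq_nil_iff]
          intro s hs
          have := h0 s hs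
          simp only [decide_eq_true_eq]
          omega
        rw [h2, if_pos (by omega), if_pos (by omega), List.nil_append,
          show k - i = (k - (i + 1)) + 1 by omega, List.getD_cons_succ]
      · have h2 : c.filter (fun s => decide (Y.lab L s = k)) = c := by
          rw [List.filter_eq_self]
          intro s hs
          have := h0 s hs
          simp only [decide_eq_true_eq]
          omega
        rw [h2, if_neg (by omega), if_pos (by omega), hik, Nat.sub_self, List.getD_cons_zero,
          List.append_nil]
      · have h2 : c.filter (fun s => decide (Y.lab L s = k)) = [] := by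
          rw [List.filter_eq_nil_iff]
          intro s hs
          have := h0 s hs
          simp only [decide_eq_true_eq]
          omega
        rw [h2, if_neg (by omega), if_neg (by omega), List.nil_append]
  have h := key L 0 (fun j hj s hs => by rw [Nat.zero_add]; exact lab_of_mem hS hL hj hs)
  simpa using h

/-- Sum over the strings of one circle. -/
theorem sum_circle {M : Type*} [AddCommMonoid M] (hS : Sfree S) (hL : MinCover S L) {k : ℕ}
    (hk : k < L.length) (f : List ℕ → M) :
    ∑ v ∈ univ.filter (fun v => labV L v = k), f (str L v) = ((L.getD k []).map f).sum := by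
  rw [← filter_flatten hS hL hk, Finset.sum_filter]
  have h1 : ∀ l : List (List ℕ), ∑ v : Fin l.length, (if Y.lab L (l.get v) = k then f (l.get v)
      else 0) = ((l.filter (fun s => decide (Y.lab L s = k))).map f).sum := by
    intro l
    induction l with
    | nil => simp
    | cons s l ih =>
      rw [List.filter_cons]
      have h2 : ∑ v : Fin (s :: l).length, (if Y.lab L ((s :: l).get v) = k then
          f ((s :: l).get v) else 0) = (if Y.lab L s = k then f s else 0) +
          ∑ v : Fin l.length, (if Y.lab L (l.get v) = k then f (l.get v) else 0) := by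
        exact Fin.sum_univ_succ (n := l.length) _
      rw [h2, ih]
      by_cases h : Y.lab L s = k
      · simp [h]
      · simp [h]
  exact h1 L.flatten

theorem cir_of_lab {v : VS L} {k : ℕ} (h : labV L v = k) : cir L v = L.getD k [] := by
  unfold cir; rw [h]

theorem getD_mem {k : ℕ} (hk : k < L.length) : L.getD k [] ∈ L := by
  rw [List.getD_eq_getElem _ _ hk]; exact List.getElem_mem hk

theorem nodup_mem (hS : Sfree S) (hL : MinCover S L) {c : List (List ℕ)} (hc : c ∈ L) :
    c.Nodup := H196.nodup_of_mem hS hL hc

theorem exists_str {s : List ℕ} (hs : s ∈ L.flatten) : ∃ v : VS L, str L v = s :=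
  List.mem_iff_get.1 hs

theorem exists_snd {c : List (List ℕ)} {s : List ℕ} (hs : s ∈ c) :
    ∃ e ∈ cprs [] c, e.2 = s := by
  have h : s ∈ (cprs [] c).map Prod.snd := (cprs_snd [] c).mem_iff.2 hs
  obtain ⟨e, he, rfl⟩ := List.mem_map.1 h
  exact ⟨e, he, rfl⟩

theorem exists_fst {c : List (List ℕ)} {s : List ℕ} (hs : s ∈ c) :
    ∃ e ∈ cprs [] c, e.1 = s := by
  have h : s ∈ (cprs [] c).map Prod.fst := by rw [cprs_fst]; exact hs
  obtain ⟨e, he, rfl⟩ := List.mem_map.1 h
  exact ⟨e, he, rfl⟩

theorem sum_eps (hS : Sfree S) (hL : MinCover S L) {k : ℕ} (hk : k < L.length) :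
    ∑ v ∈ univ.filter (fun v => labV L v = k), epsS (cir L v) (str L v) =
      ((cprs [] (L.getD k [])).map (fun e => ov e.1 e.2)).sum := by
  rw [← sum_epsS (nodup_mem hS hL (getD_mem hk)), ← sum_circle hS hL hk]
  refine sum_congr rfl fun v hv => ?_
  rw [cir_of_lab (mem_filter.1 hv).2]

theorem sum_epm (hS : Sfree S) (hL : MinCover S L) {k : ℕ} (hk : k < L.length) :
    ∑ v ∈ univ.filter (fun v => labV L v = k), epmS (cir L v) (str L v) =
      ((cprs [] (L.getD k [])).map (fun e => ov e.1 e.2)).sum := by
  rw [← sum_epmS (nodup_mem hS hL (getD_mem hk)), ← sum_circle hS hL hk]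
  refine sum_congr rfl fun v hv => ?_
  rw [cir_of_lab (mem_filter.1 hv).2]

theorem length_le_flatten {l : List (List ℕ)} {s : List ℕ} (hs : s ∈ l) :
    s.length ≤ l.flatten.length := by
  rw [List.length_flatten]
  exact List.le_sum_of_mem (List.mem_map_of_mem hs)

/-- THE FLOW DATA of a minimum cover. -/
noncomputable def fd (hS : Sfree S) (hL : MinCover S L) : FD (VS L) ℕ where
  lab := labV L
  big := (Finset.range L.length).filter (fun k => big (L.getD k []) = true)
  len v := (str L v).length
  ov u v := ov (str L u) (str L v)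
  eps v := epsS (cir L v) (str L v)
  epsm v := epmS (cir L v) (str L v)
  w k := cycW (L.getD k [])
  e k := cycO (L.getD k [])
  M := L.flatten.flatten.length
  ne := by
    intro D hD
    rw [mem_filter, mem_range] at hD
    have hc := getD_mem hD.1
    obtain ⟨s, hs⟩ := List.exists_mem_of_ne_nil _ (hL.ne _ hc)
    obtain ⟨v, hv⟩ := exists_str (L := L) (List.mem_flatten.2 ⟨_, hc, hs⟩)
    refine ⟨v, ?_⟩
    unfold labV
    rw [hv]
    refine lab_of_mem hS hL hD.1 ?_
    rw [List.getD_eq_getElem _ _ hD.1] at hs
    exact hs
  w_eq := by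
    intro D hD
    rw [mem_filter, mem_range] at hD
    rw [sum_eps hS hL hD.1, sum_circle hS hL hD.1 List.length]
    exact cycW_cprs _ (hL.ne _ (getD_mem hD.1))
  sum_eq := by
    intro D hD
    rw [mem_filter, mem_range] at hD
    rw [sum_eps hS hL hD.1, sum_epm hS hL hD.1]
  f2 := by
    intro D hD u v hu hv
    rw [mem_filter, mem_range] at hD
    have hc := getD_mem hD.1
    have hb : cycW (L.getD D []) < cycO (L.getD D []) := by simpa [big] using hD.2
    have hnd := nodup_mem hS hL hc
    have hu1 : str L u ∈ L.getD D [] := by rw [← cir_of_lab hu]; exact str_mem_cir u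
    have hv1 : str L v ∈ L.getD D [] := by rw [← cir_of_lab hv]; exact str_mem_cir v
    obtain ⟨e, he, he1⟩ := exists_fst hu1
    obtain ⟨e', he', he2⟩ := exists_snd hv1
    have h1 := H196.ov_le_succ hS hL hc hb he hv1
    have h2 := H196.ov_le_pred hS hL hc hb he' hu1
    rw [cir_of_lab hu, cir_of_lab hv, ← he1, ← he2, epsS_of hnd he, epmS_of hnd he']
    rw [← he2] at h1
    rw [← he1] at h2
    omega
  le_M := by
    intro D hD
    rw [mem_filter, mem_range] at hD
    have hc := getD_mem hD.1
    have hne := hL.ne _ hc
    have h1 := ov_le_leftF ((L.getD D []).getLastD []) ((L.getD D []).headD [])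
    have h2 : (L.getD D []).getLastD [] ∈ L.getD D [] := by
      rw [List.getLastD_eq_getLast?, List.getLast?_eq_some_getLast hne]
      exact List.getLast_mem hne
    have h3 := length_le_flatten (List.mem_flatten.2 ⟨_, hc, h2⟩)
    unfold cycO
    omega

/-- The labels of the circles of `F`. -/
def Fs (L F : List (List (List ℕ))) : Finset ℕ :=
  (Finset.range L.length).filter (fun k => L.getD k [] ∈ F)

end Vale.Agent.P333.H359
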