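import Mathlib
import Vale.Agent.P333.Y.Defs
import Vale.Agent.P333.H241.TCyc
import Vale.Agent.P333.H359.Inst

set_option linter.all false

/-!
P333, ratio 2: the cost of the last assignment (PartM), from M3 (the optimal assignments are optimal
fractional solutions) and M4 (subgradient phase).
-/

namespace Vale.Agent.P333.H359

open Finset Vale.Agent.P333 Vale.Agent.P333.U Vale.Agent.P333.G Vale.Agent.P333.Y

/-- M3: the optimal assignment as an optimal fractional solution. -/
def M3 : Prop := ∀ asg, AsgOk asg → ∀ S L (hS : Sfree S) (hL : MinCover S L) F, FOk L F →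
  ∃ y a c, (fd hS hL).sys.Opt (Fs L F) y a c ∧
    (∀ k < L.length, a k = lv (nodes L F) (asgF asg (bnd S) F (nodes L F)) (L.getD k [])) ∧
    c + (asgVal (gmat (bnd S) F (nodes L F)) (asgF asg (bnd S) F (nodes L F)) : ℤ) =
      (((nodes L F).map (base2 F)).sum + 2 * bnd S * (nodes L F).length : ℕ)

/-- M4: the result of the subgradient phase. -/
def M4 : Prop := ∀ asg, AsgOk asg → ∀ S L T (hS : Sfree S) (hL : MinCover S L),
  IsSuperstring S T → 2 ≤ L.length →
  ∃ x0 : VS L → VS L → ℝ, (fd hS hL).Feas ∅ x0 ∧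
    (∀ k ∈ (fd hS hL).big, (fd hS hL).f k x0 * (parT (bnd S) : ℝ) =
      ((sub asg (bnd S) L).getD k 0 : ℕ)) ∧
    (∀ k ∈ (fd hS hL).big, 1 - 1 / (bnd S : ℝ) ^ 4 ≤ (fd hS hL).f k x0) ∧
    2 * (fd hS hL).cost ∅ x0 ≤ 2 * T.length + 1 / (8 * (bnd S : ℝ) ^ 2)

variable {S : List (List ℕ)} {L : List (List (List ℕ))}

theorem amin_foldl {α : Type} (f : α → ℕ) (l : List α) (b : α) :
    (l.foldl (fun b x => if f x < f b then x else b) b = b ∨
      l.foldl (fun b x => if f x < f b then x else b) b ∈ l) ∧
    f (l.foldl (fun b x => if f x < f b then x else b) b) ≤ f b ∧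
    ∀ x ∈ l, f (l.foldl (fun b x => if f x < f b then x else b) b) ≤ f x := by
  induction l generalizing b with
  | nil => simp
  | cons y l ih =>
    rw [List.foldl_cons]
    by_cases h : f y < f b
    · rw [if_pos h]
      obtain ⟨h1, h2, h3⟩ := ih y
      refine ⟨?_, by omega, ?_⟩
      · rcases h1 with h1 | h1
        · right; rw [h1]; exact List.mem_cons_self
        · right; exact List.mem_cons_of_mem _ h1
      · intro x hx
        rcases List.mem_cons.1 hx with rfl | hx
        · exact h2
        · exact h3 x hx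
    · rw [if_neg h]
      obtain ⟨h1, h2, h3⟩ := ih b
      refine ⟨?_, h2, ?_⟩
      · rcases h1 with h1 | h1
        · left; exact h1
        · right; exact List.mem_cons_of_mem _ h1
      · intro x hx
        rcases List.mem_cons.1 hx with rfl | hx
        · omega
        · exact h3 x hx

theorem amin_mem {α : Type} (f : α → ℕ) (d : α) {l : List α} (hl : l ≠ []) : amin f d l ∈ l := by
  obtain ⟨x, r, rfl⟩ := List.exists_cons_of_ne_nil hl
  unfold amin
  rcases (amin_foldl f (x :: r) ((x :: r).headD d)).1 with h | h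
  · rw [h]; simp
  · exact h

theorem amin_le {α : Type} (f : α → ℕ) (d : α) {l : List α} {x : α} (hx : x ∈ l) :
    f (amin f d l) ≤ f x := (amin_foldl f l (l.headD d)).2.2 x hx

theorem mem_Fs {F : List (List (List ℕ))} {k : ℕ} :
    k ∈ Fs L F ↔ k < L.length ∧ L.getD k [] ∈ F := by
  simp [Fs]

theorem getD_inj (hS : Sfree S) (hL : MinCover S L) {j k : ℕ} (hj : j < L.length)
    (hk : k < L.length) (h : L.getD j [] = L.getD k []) : j = k := by
  rw [List.getD_eq_getElem _ _ hj, List.getD_eq_getElem _ _ hk] at h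
  exact (L_nodup hS hL).getElem_inj_iff.1 h

theorem Fs_cons (hS : Sfree S) (hL : MinCover S L) {F : List (List (List ℕ))} {k : ℕ}
    (hk : k < L.length) : Fs L (L.getD k [] :: F) = insert k (Fs L F) := by
  ext j
  rw [mem_insert, mem_Fs, mem_Fs, List.mem_cons]
  constructor
  · rintro ⟨hj, h | h⟩
    · exact Or.inl (getD_inj hS hL hj hk h)
    · exact Or.inr ⟨hj, h⟩
  · rintro (h | h)
    · subst h; exact ⟨hk, Or.inl rfl⟩
    · exact ⟨h.1, Or.inr h.2⟩

theorem Fs_nil : Fs L [] = ∅ := by
  ext j; simp [mem_Fs]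

theorem mem_zs {asg : List Unit × List (List ℕ) → List ℕ} {B : ℕ} {F : List (List (List ℕ))}
    {k : ℕ} : k ∈ zs asg B L F ↔ k < L.length ∧ big (L.getD k []) = true ∧ L.getD k [] ∉ F ∧
      lv (nodes L F) (asgF asg B F (nodes L F)) (L.getD k []) = 0 := by
  unfold zs
  rw [List.mem_filter, List.mem_range]
  simp only [Bool.and_eq_true, Bool.not_eq_true', decide_eq_false_iff_not, decide_eq_true_eq]
  tauto

/-- Invariant of the selection. -/
structure SInv (hS : Sfree S) (hL : MinCover S L) (asg : List Unit × List (List ℕ) → List ℕ)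
    (s : Sel) : Prop where
  fok : FOk L s.1
  len : s.2.1.length = L.length
  reach : (fd hS hL).sys.Reach (parT (bnd S)) (fun k => (sub asg (bnd S) L).getD k 0) (Fs L s.1)
    (fun k => s.2.1.getD k 0) s.2.2

theorem lv_nil (N : List (List (List ℕ))) (P : List ℕ) : lv N P [] = 0 := by
  simp [lv]

theorem big_iff (hS : Sfree S) (hL : MinCover S L) {k : ℕ} :
    k ∈ (fd hS hL).sys.big ↔ k < L.length ∧ big (L.getD k []) = true := by
  show k ∈ (Finset.range L.length).filter (fun k => big (L.getD k []) = true) ↔ _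
  rw [mem_filter, mem_range]

theorem SInv.step (h3 : M3) {asg : List Unit × List (List ℕ) → List ℕ} (ha : AsgOk asg)
    (hS : Sfree S) (hL : MinCover S L) {s : Sel} (h : SInv hS hL asg s) :
    SInv hS hL asg (selStep asg (bnd S) L s) := by
  unfold selStep
  split_ifs with hz
  · exact h
  · have hz' : zs asg (bnd S) L s.1 ≠ [] := by simpa [List.isEmpty_iff] using hz
    have hk := amin_mem (fun j => s.2.1.getD j 0) 0 hz'
    have hmin : ∀ x ∈ zs asg (bnd S) L s.1, s.2.1.getD (amin (fun j => s.2.1.getD j 0) 0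
        (zs asg (bnd S) L s.1)) 0 ≤ s.2.1.getD x 0 := fun x hx =>
      amin_le (fun j => s.2.1.getD j 0) 0 hx
    generalize amin (fun j => s.2.1.getD j 0) 0 (zs asg (bnd S) L s.1) = k at hk hmin
    rw [mem_zs] at hk
    obtain ⟨hk1, hk2, hk3, hk4⟩ := hk
    obtain ⟨y, a, c, hy, hya, -⟩ := h3 asg ha S L hS hL s.1 h.fok
    -- the optimal solution with the numbers `lv`
    have hy' : (fd hS hL).sys.Opt (Fs L s.1) y (fun k => lv (nodes L s.1)
        (asgF asg (bnd S) s.1 (nodes L s.1)) (L.getD k [])) c :=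
      ⟨hy.mem, fun D hD hDF => by rw [hy.flow D hD hDF, hya D ((big_iff hS hL).1 hD).1],
        hy.cost, hy.opt⟩
    refine ⟨⟨?_, ?_, ?_⟩, ?_, ?_⟩
    · exact List.nodup_cons.2 ⟨hk3, h.fok.nodup⟩
    · intro c hc
      rcases List.mem_cons.1 hc with rfl | hc
      · exact getD_mem hk1
      · exact h.fok.sub c hc
    · intro c hc
      rcases List.mem_cons.1 hc with rfl | hc
      · exact hk2
      · exact h.fok.big c hc
    · show ((List.range L.length).map _).length = _
      simp
    · have hr := Sys.Reach.step (Fs L s.1) (fun k => s.2.1.getD k 0) s.2.2 y _ c k h.reach hy'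
        ((big_iff hS hL).2 ⟨hk1, hk2⟩) (fun h' => hk3 (mem_Fs.1 h').2) hk4
        (by
          intro D' hD' hD'F ha'
          obtain ⟨h1, h2⟩ := (big_iff hS hL).1 hD'
          exact hmin D' (mem_zs.2 ⟨h1, h2, fun h' => hD'F (mem_Fs.2 ⟨h1, h'⟩), ha'⟩))
      have e1 : Fs L (selUpd L (nodes L s.1) (asgF asg (bnd S) s.1 (nodes L s.1)) s k).1 =
          insert k (Fs L s.1) := Fs_cons hS hL hk1
      have e2 : (fun j => (selUpd L (nodes L s.1) (asgF asg (bnd S) s.1 (nodes L s.1)) s
          k).2.1.getD j 0) = (fun D' => s.2.1.getD D' 0 + (s.2.1.getD k 0 - s.2.2) *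
            lv (nodes L s.1) (asgF asg (bnd S) s.1 (nodes L s.1)) (L.getD D' [])) := by
        funext j
        show ((List.range L.length).map _).getD j 0 = _
        by_cases hj : j < L.length
        · rw [List.getD_eq_getElem _ _ (by simpa using hj)]
          simp
        · rw [List.getD_eq_default _ _ (by simp; omega),
            List.getD_eq_default s.2.1 _ (by rw [h.len]; omega),
            List.getD_eq_default L _ (by omega), lv_nil, Nat.mul_zero]
      rw [e1, e2]
      exact hr

theorem parT_pos {B : ℕ} (hB : 0 < B) : 0 < parT B :=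
  Nat.mul_pos (by norm_num) (Nat.pow_pos hB)

theorem length_iter (asg : List Unit × List (List ℕ) → List ℕ) (B R T : ℕ) (n : ℕ) (hn : 0 < n)
    (st : List ℕ × List ℕ) : ((subStep asg B R T L)^[n] st).2.length = L.length := by
  obtain ⟨m, rfl⟩ : ∃ m, n = m + 1 := ⟨n - 1, by omega⟩
  rw [Function.iterate_succ_apply']
  simp [subStep]

theorem length_sub (asg : List Unit × List (List ℕ) → List ℕ) {B : ℕ} (hB : 0 < B) :
    (sub asg B L).length = L.length := by
  unfold sub
  exact length_iter asg B _ _ _ (parT_pos hB) _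

theorem length_le_flatten' {α : Type*} : ∀ (l : List (List α)), (∀ x ∈ l, x ≠ []) →
    l.length ≤ l.flatten.length
  | [], _ => by simp
  | x :: l, h => by
    have h1 := length_le_flatten' l fun y hy => h y (List.mem_cons_of_mem _ hy)
    have h2 := List.length_pos_of_ne_nil (h x List.mem_cons_self)
    rw [List.flatten_cons, List.length_append, List.length_cons]
    omega

theorem bnd_pos (S : List (List ℕ)) : 0 < bnd S := Nat.succ_pos _

theorem sinv (h3 : M3) {asg : List Unit × List (List ℕ) → List ℕ} (ha : AsgOk asg)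
    (hS : Sfree S) (hL : MinCover S L) (n : ℕ) :
    SInv hS hL asg ((selStep asg (bnd S) L)^[n] ([], sub asg (bnd S) L, parT (bnd S))) := by
  induction n with
  | zero =>
    rw [Function.iterate_zero_apply]
    have hl := length_sub (L := L) asg (bnd_pos S)
    generalize hsub : sub asg (bnd S) L = Φ at hl ⊢
    generalize hpt : parT (bnd S) = q
    refine ⟨⟨List.nodup_nil, by simp, by simp⟩, hl, ?_⟩
    rw [hsub, hpt]
    show (fd hS hL).sys.Reach q (fun k => Φ.getD k 0) (Fs L []) (fun k => Φ.getD k 0) q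
    rw [Fs_nil]
    exact Sys.Reach.init
  | succ n ih =>
    rw [Function.iterate_succ_apply']
    exact ih.step h3 ha hS hL

/-! ### Permutations as fractional solutions -/

theorem perm_int (hS : Sfree S) (hL : MinCover S L) (σ : Equiv.Perm (VS L)) :
    FD.Int (fd hS hL) ∅ (VS L) id σ id σ :=
  ⟨by simp, by simp, fun _ => rfl, fun _ => rfl⟩

theorem cost_perm (hS : Sfree S) (hL : MinCover S L) (σ : Equiv.Perm (VS L)) :
    (fd hS hL).cost ∅ (FD.emb id σ) = (G.cost ov L.flatten σ : ℝ) := by
  unfold FD.cost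
  rw [FD.sum_emb]
  have hK : ((fd hS hL).K ∅ : ℝ) = 2 * ∑ v : VS L, ((str L v).length : ℝ) := by
    unfold FD.K
    simp only [notMem_empty, not_false_eq_true, filter_true, sum_empty, add_zero]
    push_cast
    rw [mul_sum]
    rfl
  have hg : ∀ u v : VS L, ((fd hS hL).g ∅ u v : ℝ) = 2 * (ov (str L u) (str L v) : ℝ) := by
    intro u v
    unfold FD.g
    simp only [notMem_empty, false_and, if_false, sub_zero]
    push_cast
    rfl
  rw [hK]
  simp only [hg, id_eq]
  unfold G.cost
  push_cast
  rw [← mul_sum, ← mul_sub, mul_div_cancel_left₀ _ (by norm_num : (2 : ℝ) ≠ 0), ← sum_sub_distrib]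
  refine sum_congr rfl fun v _ => ?_
  rw [Nat.cast_sub (ov_le_leftF _ _)]
  rfl

theorem bnd_eq (hL : MinCover S L) : bnd S = L.flatten.flatten.length + 1 := by
  unfold bnd
  rw [List.length_flatten, List.length_flatten, (hL.perm.map List.length).sum_eq]

theorem sfree_flatten (hS : Sfree S) (hL : MinCover S L) : Sfree L.flatten := by
  refine ⟨fun s hs => hS.1 s (hL.perm.mem_iff.1 hs), ?_⟩
  refine (List.Perm.pairwise_iff ?_ hL.perm).2 hS.2
  intro a b h
  exact ⟨h.2, h.1⟩

theorem super_flatten (hL : MinCover S L) {T : List ℕ} (hT : IsSuperstring S T) :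
    IsSuperstring L.flatten T := fun s hs => hT s (hL.perm.mem_iff.1 hs)

/-- The main case. -/
theorem main_case (h3 : M3) (h4 : M4) {asg : List Unit × List (List ℕ) → List ℕ}
    (ha : AsgOk asg) {T : List ℕ} (hS : Sfree S) (hL : MinCover S L) (hT : IsSuperstring S T)
    (h2 : 2 ≤ L.length) {y : VS L → VS L → ℝ} {a : ℕ → ℕ} {c : ℤ}
    (hy : (fd hS hL).sys.Opt (Fs L (selF asg (bnd S) L)) y a c) : c ≤ 2 * T.length := by
  obtain ⟨x0, hx0, hflow, hlow, hcost⟩ := h4 asg ha S L T hS hL hT h2
  have hB : (2 : ℝ) ≤ bnd S := by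
    have h1 : 2 ≤ bnd S := by
      rw [bnd_eq hL]
      have hne : L ≠ [] := by rintro rfl; simp at h2
      obtain ⟨c, hc⟩ := List.exists_mem_of_ne_nil L hne
      obtain ⟨s, hs⟩ := List.exists_mem_of_ne_nil _ (hL.ne _ hc)
      have h5 : s ∈ L.flatten := List.mem_flatten.2 ⟨c, hc, hs⟩
      have h6 := length_le_flatten h5
      have h7 := List.length_pos_of_ne_nil (hS.1 s (hL.perm.mem_iff.1 h5))
      omega
    exact_mod_cast h1
  have hLB : (L.length : ℝ) ≤ bnd S := by
    have h1 : L.length ≤ bnd S := by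
      rw [bnd_eq hL]
      have h5 := length_le_flatten' L hL.ne
      have h6 := length_le_flatten' L.flatten fun s hs => hS.1 s (hL.perm.mem_iff.1 hs)
      omega
    exact_mod_cast h1
  have hM : ((fd hS hL).sys.M : ℝ) ≤ bnd S := by
    show (((fd hS hL).M : ℕ) : ℝ) ≤ _
    have h1 : (fd hS hL).M ≤ bnd S := by
      show L.flatten.flatten.length ≤ _
      rw [bnd_eq hL]; omega
    exact_mod_cast h1
  have hbig : (((fd hS hL).sys.big.card : ℕ) : ℝ) ≤ bnd S := by
    refine le_trans ?_ hLB
    have h1 : (fd hS hL).sys.big.card ≤ L.length := by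
      show ((Finset.range L.length).filter (fun k => big (L.getD k []) = true)).card ≤ _
      exact (card_filter_le _ _).trans (by simp)
    exact_mod_cast h1
  have hinv := (sinv h3 ha hS hL L.length).reach
  obtain ⟨B, hBdef⟩ : ∃ B : ℝ, B = (bnd S : ℝ) := ⟨_, rfl⟩
  rw [← hBdef] at hB hLB hM hbig hlow hcost
  have hB0 : 0 < B := by linarith
  refine Sys.Reach.cost_le (S := (fd hS hL).sys) (N := 2 * T.length)
    (κ := T.length + 1 / (16 * B ^ 2)) (δ := 1 / B ^ 4)
    (x0 := x0) (parT_pos (bnd_pos S)) (by positivity) ?_ ?_ hx0 hflow hlow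
    ?_ hinv hy
  · push_cast
    have : 0 ≤ 1 / (16 * B ^ 2) := by positivity
    linarith
  · have h5 : ((fd hS hL).sys.big.card : ℝ) * ((fd hS hL).sys.M * (1 / B ^ 4)) ≤ 1 / B ^ 2 := by
      have h6 : ((fd hS hL).sys.big.card : ℝ) * ((fd hS hL).sys.M * (1 / B ^ 4)) ≤
          B * (B * (1 / B ^ 4)) := by
        apply mul_le_mul hbig _ (mul_nonneg (fd hS hL).sys.M_nonneg (by positivity)) hB0.le
        exact mul_le_mul_of_nonneg_right hM (by positivity)
      refine h6.trans (le_of_eq ?_)
      field_simp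
    have h7 : 1 / B ^ 2 ≤ 1 / 4 := by
      apply one_div_le_one_div_of_le (by norm_num)
      nlinarith
    have h8 : 1 / (16 * B ^ 2) = (1 / B ^ 2) / 16 := by field_simp
    push_cast
    rw [h8]
    linarith
  · show (fd hS hL).cost ∅ x0 ≤ _
    have h8 : 1 / (8 * B ^ 2) = 2 * (1 / (16 * B ^ 2)) := by field_simp; norm_num
    linarith

/-- No contracted circle. -/
theorem nil_case {T : List ℕ} (hS : Sfree S) (hL : MinCover S L) (hT : IsSuperstring S T)
    (hne : L ≠ []) {y : VS L → VS L → ℝ} {a : ℕ → ℕ} {c : ℤ}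
    (hy : (fd hS hL).sys.Opt (Fs L []) y a c) : c ≤ 2 * T.length := by
  rw [Fs_nil] at hy
  have hne' : L.flatten ≠ [] := by
    obtain ⟨c, hc⟩ := List.exists_mem_of_ne_nil L hne
    obtain ⟨s, hs⟩ := List.exists_mem_of_ne_nil _ (hL.ne _ hc)
    exact List.ne_nil_of_mem (List.mem_flatten.2 ⟨c, hc, hs⟩)
  obtain ⟨σ, hσ, -⟩ := H241.tCyc L.flatten T (sfree_flatten hS hL) hne' (super_flatten hL hT)
  have h1 := hy.opt (FD.emb id σ) ((perm_int hS hL σ).feas)
  have h2 : (fd hS hL).cost ∅ (FD.emb id σ) ≤ T.length := by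
    rw [cost_perm]
    exact_mod_cast hσ
  have h3 := hy.cost
  have h4 : (c : ℝ) ≤ ((2 * T.length : ℤ) : ℝ) := by
    rw [← h3]
    push_cast
    have h5 : (fd hS hL).sys.cost ∅ y ≤ T.length := h1.trans h2
    linarith
  exact_mod_cast h4

theorem partM_of (h0 : PartM0) (h3 : M3) (h4 : M4) : PartM := by
  intro asg ha S L T hS hL hT
  obtain ⟨hF, hP, -⟩ := h0 asg ha S L hS hL
  obtain ⟨y, a, c, hy, -, hc⟩ := h3 asg ha S L hS hL _ hF
  have key : c ≤ 2 * T.length →
      ((nodes L (selF asg (bnd S) L)).map (base2 (selF asg (bnd S) L))).sum +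
        2 * bnd S * (nodes L (selF asg (bnd S) L)).length ≤
      asgVal (gmat (bnd S) (selF asg (bnd S) L) (nodes L (selF asg (bnd S) L))) (lastP asg S L) +
        2 * T.length := by
    intro hc2
    unfold lastP
    zify
    push_cast at hc
    linarith
  rcases L with _ | ⟨C, L⟩
  · simp [nodes]
  rcases L with _ | ⟨C', L⟩
  · -- one circle
    by_cases hF0 : selF asg (bnd S) [C] = []
    · rw [hF0] at hy
      exact key (nil_case hS hL hT (by simp) hy)
    · have hF1 : selF asg (bnd S) [C] = [C] := by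
        have h1 := hF.sub
        have h2 := hF.nodup
        generalize selF asg (bnd S) [C] = F at *
        rcases F with _ | ⟨D, F⟩
        · exact absurd rfl hF0
        · have h3 : D = C := by simpa using h1 D (by simp)
          subst h3
          rcases F with _ | ⟨D', F⟩
          · rfl
          · have h4 : D' = D := by simpa using h1 D' (by simp)
            subst h4
            simp at h2
      have hC : C ∈ [C] := by simp
      have hCne := hL.ne C hC
      have hb := hF.big C (by rw [hF1]; simp)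
      unfold lastP at hP
      unfold lastP
      rw [hF1] at hP ⊢
      have hn : nodes [C] [C] = [C] := by simp [nodes]
      rw [hn] at hP ⊢
      have hP1 : asgF asg (bnd S) [C] [C] = [0] := by
        have : (List.range [C].length) = [0] := by simp [List.range_succ]
        rw [this] at hP
        exact List.perm_singleton.1 hP
      rw [hP1]
      have hgn : gn (bnd S) [C] C C = 2 * bnd S + 2 * cycW C - 2 * cycO C := by simp [gn]
      have hv : asgVal (gmat (bnd S) [C] [C]) [0] = 2 * bnd S + 2 * cycW C - 2 * cycO C := by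
        simp [asgVal, gmat, ent, hgn, List.range_succ]
      rw [hv]
      have hlast : C.getLastD [] ∈ C := by
        rw [List.getLastD_eq_getLast?, List.getLast?_eq_some_getLast hCne]
        exact List.getLast_mem hCne
      have h5 : C.getLastD [] ∈ S := hL.perm.mem_iff.1 (List.mem_flatten.2 ⟨C, hC, hlast⟩)
      have h6 := (hT _ h5).length_le
      have h7 := ov_le_leftF (C.getLastD []) (C.headD [])
      have h8 := length_le_flatten h5
      have h9 : (bnd S) = S.flatten.length + 1 := rfl
      have h10 : cycO C ≤ (C.getLastD []).length := h7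
      simp [base2]
      omega
  · exact key (main_case h3 h4 ha hS hL hT (by simp) hy)

end Vale.Agent.P333.H359
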