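import Vale.Agent.P333.H705.GrDefs

set_option autoImplicit false

/-!
P333: the greedy algorithm on the family obtained by replacing each letter `a` by the block
`a * c, a * c + 1, ..., a * c + (c - 1)`.
-/

namespace Vale.Agent.P333.H359.Scale

open Vale.Agent.P333

/-- the block of a letter -/
def blkL (c a : ℕ) : List ℕ := (List.range c).map fun i => a * c + i

/-- the string obtained by replacing each letter by its block -/
def blk (c : ℕ) (x : List ℕ) : List ℕ := x.flatMap (blkL c)

theorem length_blkL (c a : ℕ) : (blkL c a).length = c := by simp [blkL]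

theorem blk_nil (c : ℕ) : blk c [] = [] := rfl

theorem blk_cons (c a : ℕ) (x : List ℕ) : blk c (a :: x) = blkL c a ++ blk c x := by
  simp [blk]

theorem blk_append (c : ℕ) (x y : List ℕ) : blk c (x ++ y) = blk c x ++ blk c y := by
  simp [blk]

theorem length_blk (c : ℕ) : ∀ x : List ℕ, (blk c x).length = c * x.length
  | [] => by simp [blk]
  | a :: x => by
      rw [blk_cons, List.length_append, length_blkL, length_blk c x, List.length_cons]
      ring

theorem blkL_inj {c a b : ℕ} (hc : 0 < c) (h : blkL c a = blkL c b) : a = b := by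
  have h0 : (blkL c a)[0]? = (blkL c b)[0]? := by rw [h]
  simp only [blkL, List.getElem?_map] at h0
  rw [List.getElem?_range hc] at h0
  simp only [Option.map_some, Option.some.injEq, Nat.add_zero] at h0
  exact Nat.eq_of_mul_eq_mul_right hc h0

theorem blk_inj {c : ℕ} (hc : 0 < c) : Function.Injective (blk c) := by
  intro x
  induction x with
  | nil =>
      intro y h
      have h1 := congrArg List.length h
      rw [length_blk, length_blk] at h1
      simp only [List.length_nil, Nat.mul_zero] at h1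
      rcases Nat.mul_eq_zero.1 h1.symm with h2 | h2
      · omega
      · exact (List.length_eq_zero_iff.1 h2).symm
  | cons a x ih =>
      intro y h
      cases y with
      | nil =>
          have h1 := congrArg List.length h
          rw [length_blk, length_blk] at h1
          simp only [List.length_nil, Nat.mul_zero, List.length_cons] at h1
          rcases Nat.mul_eq_zero.1 h1 with h2 | h2 <;> omega
      | cons b y =>
          rw [blk_cons, blk_cons] at h
          have h1 := List.append_inj h (by rw [length_blkL, length_blkL])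
          rw [blkL_inj hc h1.1, ih h1.2]

theorem blk_get_mod (c : ℕ) : ∀ (x : List ℕ) (j a : ℕ), (blk c x)[j]? = some a → a % c = j % c
  | [], j, a => by simp [blk]
  | b :: x, j, a => by
      intro h
      rw [blk_cons] at h
      rcases lt_or_ge j c with hj | hj
      · rw [List.getElem?_append_left (by rw [length_blkL]; exact hj)] at h
        simp only [blkL, List.getElem?_map] at h
        rw [List.getElem?_range hj] at h
        simp only [Option.map_some, Option.some.injEq] at h
        rw [← h, Nat.mul_comm b c, Nat.mul_add_mod]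
      · rw [List.getElem?_append_right (by rw [length_blkL]; exact hj), length_blkL] at h
        rw [blk_get_mod c x (j - c) a h]
        conv_rhs => rw [← Nat.sub_add_cancel hj]
        rw [Nat.add_mod_right]

theorem blk_take (c : ℕ) : ∀ (x : List ℕ) (k : ℕ), (blk c x).take (c * k) = blk c (x.take k)
  | [], k => by simp [blk]
  | a :: x, 0 => by simp [blk]
  | a :: x, k + 1 => by
      rw [List.take_succ_cons, blk_cons, blk_cons, ← blk_take c x k]
      rw [List.take_append]
      rw [length_blkL, List.take_of_length_le (by rw [length_blkL]; nlinarith)]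
      congr 2
      rw [Nat.mul_add, Nat.mul_one, Nat.add_sub_cancel]

theorem blk_drop (c : ℕ) (x : List ℕ) (k : ℕ) : (blk c x).drop (c * k) = blk c (x.drop k) := by
  have h1 : blk c x = blk c (x.take k) ++ blk c (x.drop k) := by
    rw [← blk_append, List.take_append_drop]
  have h2 : blk c x = (blk c x).take (c * k) ++ (blk c x).drop (c * k) :=
    (List.take_append_drop _ _).symm
  rw [blk_take] at h2
  exact List.append_cancel_left (h2.symm.trans h1)

/-- a nonempty string starting with a block occurs in an image only at a boundary of blocks -/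
theorem dvd_of_append {c : ℕ} {x y z w z' : List ℕ} (hw : w ≠ []) (h : z ++ (w ++ z') = blk c x)
    (hy : w <+: blk c y) : c ∣ z.length := by
  obtain ⟨a, w', rfl⟩ := List.exists_cons_of_ne_nil hw
  have h1 : (blk c x)[z.length]? = some a := by
    rw [← h]
    simp
  have h2 : (blk c y)[0]? = some a := by
    obtain ⟨r, hr⟩ := hy
    rw [← hr]
    simp
  have h3 := blk_get_mod c x _ _ h1
  have h4 := blk_get_mod c y _ _ h2
  rw [Nat.zero_mod] at h4
  exact Nat.dvd_of_mod_eq_zero (by rw [← h3, h4])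

theorem common {c : ℕ} (hc : 0 < c) {x y w : List ℕ} (h1 : w <:+ blk c x) (h2 : w <+: blk c y) :
    ∃ u : List ℕ, w = blk c u ∧ u <:+ x ∧ u <+: y := by
  rcases eq_or_ne w [] with rfl | hw
  · exact ⟨[], rfl, List.nil_suffix, List.nil_prefix⟩
  obtain ⟨z, hz⟩ := h1
  obtain ⟨m, hm⟩ := dvd_of_append (z' := []) hw (by rw [List.append_nil]; exact hz) h2
  have h3 : w = blk c (x.drop m) := by
    rw [← blk_drop, ← hm, ← hz]
    simp
  have h4 : w.length = c * (x.drop m).length := by rw [h3, length_blk]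
  have h5 : w = blk c (y.take (x.drop m).length) := by
    rw [← blk_take, ← h4]
    exact List.prefix_iff_eq_take.1 h2
  refine ⟨x.drop m, h3, List.drop_suffix _ _, ?_⟩
  have h6 : x.drop m = y.take (x.drop m).length := blk_inj hc (h3.symm.trans h5)
  rw [h6]
  exact List.take_prefix _ _

theorem suffix_blk (c : ℕ) {x y : List ℕ} (h : x <:+ y) : blk c x <:+ blk c y := by
  obtain ⟨z, rfl⟩ := h
  exact ⟨blk c z, (blk_append c z x).symm⟩

theorem prefix_blk (c : ℕ) {x y : List ℕ} (h : x <+: y) : blk c x <+: blk c y := by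
  obtain ⟨z, rfl⟩ := h
  exact ⟨blk c z, (blk_append c x z).symm⟩

theorem infix_blk (c : ℕ) {x y : List ℕ} (h : x <:+: y) : blk c x <:+: blk c y := by
  obtain ⟨z, z', rfl⟩ := h
  exact ⟨blk c z, blk c z', by rw [blk_append, blk_append]⟩

theorem infix_of_blk {c : ℕ} (hc : 0 < c) {x y : List ℕ} (h : blk c x <:+: blk c y) :
    x <:+: y := by
  rcases eq_or_ne x [] with rfl | hx
  · exact List.nil_infix
  obtain ⟨z, z', hz⟩ := h
  have hw : blk c x ≠ [] := by
    intro h0
    exact hx (blk_inj hc (h0.trans (blk_nil c).symm))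
  rw [List.append_assoc] at hz
  obtain ⟨m, hm⟩ := dvd_of_append hw hz (List.prefix_refl _)
  have h3 : blk c x ++ z' = blk c (y.drop m) := by
    rw [← blk_drop, ← hm, ← hz]
    simp
  have h4 : blk c x = blk c ((y.drop m).take x.length) := by
    rw [← blk_take, ← h3, ← length_blk]
    simp
  have h5 := blk_inj hc h4
  rw [h5]
  exact (List.take_prefix _ _).isInfix.trans (List.drop_suffix _ _).isInfix

theorem overlap_up {c : ℕ} (hc : 0 < c) {x y : List ℕ} {k : ℕ} (h : Greedy.IsOverlap x y k) :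
    Greedy.IsOverlap (blk c x) (blk c y) (c * k) := by
  obtain ⟨⟨w, hw, h1, h2⟩, h3⟩ := h
  refine ⟨⟨blk c w, by rw [length_blk, hw], suffix_blk c h1, prefix_blk c h2⟩, ?_⟩
  rintro l ⟨v, hv, h4, h5⟩
  obtain ⟨u, rfl, h6, h7⟩ := common hc h4 h5
  rw [← hv, length_blk]
  exact Nat.mul_le_mul_left c (h3 ⟨u, rfl, h6, h7⟩)

theorem overlap_down {c : ℕ} (hc : 0 < c) {x y : List ℕ} {l : ℕ}
    (h : Greedy.IsOverlap (blk c x) (blk c y) l) : ∃ k, l = c * k ∧ Greedy.IsOverlap x y k := by
  obtain ⟨⟨v, hv, h4, h5⟩, h3⟩ := h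
  obtain ⟨u, rfl, h6, h7⟩ := common hc h4 h5
  refine ⟨u.length, by rw [← hv, length_blk], ⟨u, rfl, h6, h7⟩, ?_⟩
  rintro k ⟨w, hw, h1, h2⟩
  have h8 := h3 ⟨blk c w, rfl, suffix_blk c h1, prefix_blk c h2⟩
  rw [length_blk, ← hv, length_blk, hw] at h8
  exact Nat.le_of_mul_le_mul_left h8 hc

theorem exists_map {c : ℕ} : ∀ G : List (List ℕ), (∀ g ∈ G, ∃ s, blk c s = g) →
    ∃ F : List (List ℕ), F.map (blk c) = G
  | [], _ => ⟨[], rfl⟩
  | g :: G, h => by
      obtain ⟨s, hs⟩ := h g List.mem_cons_self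
      obtain ⟨F, hF⟩ := exists_map G fun g' hg' => h g' (List.mem_cons_of_mem _ hg')
      exact ⟨s :: F, by rw [List.map_cons, hs, hF]⟩

theorem reduced_map {c : ℕ} (hc : 0 < c) (S F : List (List ℕ)) :
    Greedy.Reduced (S.map (blk c)) (F.map (blk c)) ↔ Greedy.Reduced S F := by
  have hi := blk_inj hc
  have key : ∀ s, (blk c s ∈ S.map (blk c) ∧
      ∀ t ∈ S.map (blk c), blk c s <:+: t → blk c s = t) ↔
      (s ∈ S ∧ ∀ t ∈ S, s <:+: t → s = t) := by
    intro s
    rw [List.mem_map_of_injective hi]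
    refine and_congr_right fun _ => ⟨fun h t ht hst => ?_, fun h t ht hst => ?_⟩
    · exact hi (h _ (List.mem_map_of_mem ht) (infix_blk c hst))
    · obtain ⟨t', ht', rfl⟩ := List.mem_map.1 ht
      rw [h t' ht' (infix_of_blk hc hst)]
  constructor
  · rintro ⟨h1, h2⟩
    refine ⟨h1.of_map _, fun s => ?_⟩
    rw [← key s, ← h2 (blk c s), List.mem_map_of_injective hi]
  · rintro ⟨h1, h2⟩
    refine ⟨h1.map hi, fun s => ?_⟩
    constructor
    · intro hs
      obtain ⟨s', hs', rfl⟩ := List.mem_map.1 hs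
      exact (key s').2 ((h2 s').1 hs')
    · rintro ⟨h3, h4⟩
      obtain ⟨s', hs', rfl⟩ := List.mem_map.1 h3
      exact List.mem_map_of_mem ((h2 s').2 ((key s').1 ⟨h3, h4⟩))

theorem perm_down {c : ℕ} (hc : 0 < c) {F : List (List ℕ)} {X Y : List ℕ} {R : List (List ℕ)}
    (h : (F.map (blk c)).Perm (X :: Y :: R)) :
    ∃ (x y : List ℕ) (R' : List (List ℕ)), X = blk c x ∧ Y = blk c y ∧ R = R'.map (blk c) ∧
      F.Perm (x :: y :: R') := by
  obtain ⟨L, hL⟩ := exists_map (c := c) (X :: Y :: R) (by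
    intro g hg
    obtain ⟨s, _, hs⟩ := List.mem_map.1 (h.mem_iff.2 hg)
    exact ⟨s, hs⟩)
  rw [← hL] at h
  have h1 : F.Perm L := (List.map_perm_map_iff (blk_inj hc)).1 h
  match L, hL with
  | x :: y :: R', hL =>
      simp only [List.map_cons, List.cons.injEq] at hL
      exact ⟨x, y, R', hL.1.symm, hL.2.1.symm, hL.2.2.symm, h1⟩

theorem merge_blk (c : ℕ) (x y : List ℕ) (k : ℕ) :
    (blk c x).take ((blk c x).length - c * k) ++ blk c y = blk c (x.take (x.length - k) ++ y) := by
  rw [length_blk, ← Nat.mul_sub, blk_take, blk_append]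

theorem step_up {c : ℕ} (hc : 0 < c) {F F' : List (List ℕ)} (h : Greedy.Step F F') :
    Greedy.Step (F.map (blk c)) (F'.map (blk c)) := by
  obtain ⟨x, y, R, k, h1, h2, h3, rfl⟩ := h
  refine ⟨blk c x, blk c y, R.map (blk c), c * k, ?_, overlap_up hc h2, ?_, ?_⟩
  · exact h1.map (blk c)
  · intro z w R' l h4 h5
    obtain ⟨z', w', R'', rfl, rfl, rfl, h6⟩ := perm_down hc h4
    obtain ⟨k', rfl, h7⟩ := overlap_down hc h5
    exact Nat.mul_le_mul_left c (h3 z' w' R'' k' h6 h7)
  · rw [List.map_cons, merge_blk]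

theorem step_down {c : ℕ} (hc : 0 < c) {F G : List (List ℕ)}
    (h : Greedy.Step (F.map (blk c)) G) : ∃ F', G = F'.map (blk c) ∧ Greedy.Step F F' := by
  obtain ⟨X, Y, R, K, h1, h2, h3, rfl⟩ := h
  obtain ⟨x, y, R', rfl, rfl, rfl, h4⟩ := perm_down hc h1
  obtain ⟨k, rfl, h5⟩ := overlap_down hc h2
  refine ⟨(x.take (x.length - k) ++ y) :: R', ?_, x, y, R', k, h4, h5, ?_, rfl⟩
  · rw [List.map_cons, merge_blk]
  · intro z w R'' l h6 h7
    exact Nat.le_of_mul_le_mul_left
      (h3 _ _ (R''.map (blk c)) _ (h6.map (blk c)) (overlap_up hc h7)) hc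

theorem run_up {c : ℕ} (hc : 0 < c) {F F' : List (List ℕ)}
    (h : Relation.ReflTransGen Greedy.Step F F') :
    Relation.ReflTransGen Greedy.Step (F.map (blk c)) (F'.map (blk c)) := by
  induction h with
  | refl => exact Relation.ReflTransGen.refl
  | tail _ h2 ih => exact ih.tail (step_up hc h2)

theorem run_down {c : ℕ} (hc : 0 < c) {F G : List (List ℕ)}
    (h : Relation.ReflTransGen Greedy.Step (F.map (blk c)) G) :
    ∃ F', G = F'.map (blk c) ∧ Relation.ReflTransGen Greedy.Step F F' := by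
  induction h with
  | refl => exact ⟨F, rfl, Relation.ReflTransGen.refl⟩
  | tail _ h2 ih =>
      obtain ⟨F1, rfl, h3⟩ := ih
      obtain ⟨F2, rfl, h4⟩ := step_down hc h2
      exact ⟨F2, rfl, h3.tail h4⟩

/-- the outputs of the greedy algorithm for the new family are the images of the outputs for the
old one -/
theorem output_iff {c : ℕ} (hc : 0 < c) (S : List (List ℕ)) (u : List ℕ) :
    Greedy.Output (S.map (blk c)) u ↔ ∃ t, u = blk c t ∧ Greedy.Output S t := by
  constructor
  · rintro ⟨G, h1, h2⟩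
    obtain ⟨F, rfl⟩ := exists_map (c := c) G (by
      intro g hg
      obtain ⟨s, _, hs⟩ := List.mem_map.1 ((h1.2 g).1 hg).1
      exact ⟨s, hs⟩)
    obtain ⟨F', h3, h4⟩ := run_down hc h2
    match F', h3 with
    | [t], h3 =>
        simp only [List.map_cons, List.map_nil, List.cons.injEq, and_true] at h3
        exact ⟨t, h3, F, (reduced_map hc S F).1 h1, h4⟩
  · rintro ⟨t, rfl, F, h1, h2⟩
    exact ⟨F.map (blk c), (reduced_map hc S F).2 h1, run_up hc h2⟩

theorem opt_attained (S : List (List ℕ)) : ∃ T, IsSuperstring S T ∧ T.length = opt S := by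
  have h : {n : ℕ | ∃ T : List ℕ, IsSuperstring S T ∧ T.length = n}.Nonempty := by
    refine ⟨_, S.flatten, fun s hs => ?_, rfl⟩
    obtain ⟨A, B, rfl⟩ := List.append_of_mem hs
    exact ⟨A.flatten, B.flatten, by simp⟩
  exact Nat.sInf_mem h

theorem opt_blk_le (c : ℕ) (S : List (List ℕ)) : opt (S.map (blk c)) ≤ c * opt S := by
  obtain ⟨T, h1, h2⟩ := opt_attained S
  refine Nat.sInf_le ⟨blk c T, ?_, by rw [length_blk, h2]⟩
  intro s hs
  obtain ⟨s', hs', rfl⟩ := List.mem_map.1 hs
  exact infix_blk c (h1 s' hs')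

theorem le_opt {S : List (List ℕ)} {s : List ℕ} (hs : s ∈ S) : s.length ≤ opt S := by
  obtain ⟨T, h1, h2⟩ := opt_attained S
  rw [← h2]
  exact (h1 s hs).length_le

/-- The existence form for arbitrarily large optimum. -/
theorem scale_exists {S : List (List ℕ)} {t : List ℕ} {p q : ℕ} (hne : ∃ s ∈ S, s ≠ [])
    (hred : Greedy.Reduced S S) (hout : Greedy.Output S t) (h2 : 2 * opt S < t.length)
    (hr : p * opt S ≤ q * t.length) (n : ℕ) :
    ∃ (S' : List (List ℕ)) (t' : List ℕ), n ≤ opt S' ∧ Greedy.Reduced S' S' ∧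
      Greedy.Output S' t' ∧ 2 * opt S' + n < t'.length ∧ p * opt S' ≤ q * t'.length := by
  have hc : 0 < n + 1 := Nat.succ_pos n
  obtain ⟨s, hs, hs0⟩ := hne
  have hpos : 1 ≤ s.length := List.length_pos_iff.2 hs0
  have h3 := opt_blk_le (n + 1) S
  have h4 : (blk (n + 1) s).length ≤ opt (S.map (blk (n + 1))) :=
    le_opt (List.mem_map_of_mem hs)
  rw [length_blk] at h4
  refine ⟨S.map (blk (n + 1)), blk (n + 1) t, ?_, (reduced_map hc S S).2 hred,
    (output_iff hc S _).2 ⟨t, rfl, hout⟩, ?_, ?_⟩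
  · nlinarith
  · rw [length_blk]
    nlinarith
  · rw [length_blk]
    calc p * opt (S.map (blk (n + 1))) ≤ p * ((n + 1) * opt S) := Nat.mul_le_mul_left p h3
      _ = (n + 1) * (p * opt S) := by ring
      _ ≤ (n + 1) * (q * t.length) := Nat.mul_le_mul_left _ hr
      _ = q * ((n + 1) * t.length) := by ring

/-- The form with all outputs, for arbitrarily large optimum. -/
theorem scale_forall {S : List (List ℕ)} {p q : ℕ} (hne : ∃ s ∈ S, s ≠ [])
    (hred : Greedy.Reduced S S)
    (hout : ∀ t, Greedy.Output S t → 2 * opt S < t.length ∧ p * opt S ≤ q * t.length) (n : ℕ) :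
    ∃ S' : List (List ℕ), n ≤ opt S' ∧ Greedy.Reduced S' S' ∧
      ∀ t', Greedy.Output S' t' → 2 * opt S' + n < t'.length ∧ p * opt S' ≤ q * t'.length := by
  have hc : 0 < n + 1 := Nat.succ_pos n
  obtain ⟨s, hs, hs0⟩ := hne
  have hpos : 1 ≤ s.length := List.length_pos_iff.2 hs0
  have h3 := opt_blk_le (n + 1) S
  have h4 : (blk (n + 1) s).length ≤ opt (S.map (blk (n + 1))) :=
    le_opt (List.mem_map_of_mem hs)
  rw [length_blk] at h4
  refine ⟨S.map (blk (n + 1)), ?_, (reduced_map hc S S).2 hred, ?_⟩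
  · nlinarith
  · intro t' ht'
    obtain ⟨t, rfl, ht⟩ := (output_iff hc S _).1 ht'
    obtain ⟨h2, hr⟩ := hout t ht
    constructor
    · rw [length_blk]
      nlinarith
    · rw [length_blk]
      calc p * opt (S.map (blk (n + 1))) ≤ p * ((n + 1) * opt S) := Nat.mul_le_mul_left p h3
        _ = (n + 1) * (p * opt S) := by ring
        _ ≤ (n + 1) * (q * t.length) := Nat.mul_le_mul_left _ hr
        _ = q * ((n + 1) * t.length) := by ring

end Vale.Agent.P333.H359.Scale
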