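import Vale.Agent.P333.H359.Gc.Main
import Vale.Agent.P333.H359.Scale

set_option autoImplicit false

/-!
P333: the greedy algorithm is worse than twice the optimum plus any constant.
-/

namespace Vale.Agent.P333.H359

open Vale.Agent.P333

/-- For every `n` there is a family with optimum at least `n` and a greedy output longer than twice
the optimum plus `n`, with ratio at least `61 / 30`. -/
theorem greedy_unbounded (n : ℕ) : ∃ (S : List (List ℕ)) (t : List ℕ), n ≤ opt S ∧
    Greedy.Reduced S S ∧ Greedy.Output S t ∧ 2 * opt S + n < t.length ∧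
    61 * opt S ≤ 30 * t.length := by
  have h1 := Gc.opt_le
  have h2 := Gc.length_out
  refine Scale.scale_exists (S := Gc.fam) (t := Gc.g17) ⟨Gc.h0, ?_, ?_⟩ Gc.reduced Gc.output
    (by omega) (by omega) n
  · simp [Gc.fam]
  · simp [Gc.h0]

end Vale.Agent.P333.H359
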