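import Mathlib
import Vale.Agent.P333.H359.M5
import Vale.Agent.P333.H29.M3
import Vale.Agent.P333.H70.M4b
import Vale.Agent.P333.H950.M0

set_option linter.all false

/-!
P333, ratio 2: part M (all pieces put together).
-/

namespace Vale.Agent.P333.H359

open Vale.Agent.P333 Vale.Agent.P333.U Vale.Agent.P333.G Vale.Agent.P333.Y

theorem m3 : M3 := by
  intro asg ha S L hS hL F hF
  obtain ⟨y, a, c, h1, h2, h3⟩ := H29.exists_opt ha hS hL hF
  refine ⟨y, a, c, h1, h2, ?_⟩
  rw [h3]
  push_cast
  ring

theorem partM : PartM := partM_of H950.partM0 m3 H70.m4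

end Vale.Agent.P333.H359
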